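import Vale.Agent.P345s.Defs

/-!
# P345s: the calculus of single-fold relations
-/

namespace Vale.Agent.P345s

open MvPolynomial

/-- A relation with a single-fold Diophantine representation (finitely many unknowns, indexed by
any finite type). -/
def SF {σ : Type} (R : (σ → ℕ) → Prop) : Prop :=
  ∃ (τ : Type) (_ : Fintype τ) (p : MvPolynomial (σ ⊕ τ) ℤ),
    (∀ a, R a → ∃ w : τ → ℕ, ev p (Sum.elim a w) = 0) ∧
    (∀ a w, ev p (Sum.elim a w) = 0 → R a) ∧
    (∀ a w w', ev p (Sum.elim a w) = 0 → ev p (Sum.elim a w') = 0 → w = w')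

/-- Functions with a single-fold graph. -/
def FSF {σ : Type} (f : (σ → ℕ) → ℕ) : Prop :=
  SF (fun b : σ ⊕ Unit → ℕ => b (Sum.inr ()) = f (fun i => b (Sum.inl i)))

section
variable {σ τ : Type}

theorem ev_add (p q : MvPolynomial σ ℤ) (a : σ → ℕ) : ev (p + q) a = ev p a + ev q a := by
  simp [ev]

theorem ev_mul (p q : MvPolynomial σ ℤ) (a : σ → ℕ) : ev (p * q) a = ev p a * ev q a := by
  simp [ev]

theorem ev_sub (p q : MvPolynomial σ ℤ) (a : σ → ℕ) : ev (p - q) a = ev p a - ev q a := by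
  simp [ev]

theorem ev_pow (p : MvPolynomial σ ℤ) (n : ℕ) (a : σ → ℕ) : ev (p ^ n) a = ev p a ^ n := by
  simp [ev]

theorem ev_sum {ι : Type} (s : Finset ι) (p : ι → MvPolynomial σ ℤ) (a : σ → ℕ) :
    ev (∑ i ∈ s, p i) a = ∑ i ∈ s, ev (p i) a := by
  simp [ev, map_sum]

theorem ev_X (i : σ) (a : σ → ℕ) : ev (X i) a = a i := by
  simp [ev]

theorem ev_C (c : ℤ) (a : σ → ℕ) : ev (C c) a = c := by
  simp [ev]

theorem ev_rename (g : σ → τ) (p : MvPolynomial σ ℤ) (b : τ → ℕ) :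
    ev (rename g p) b = ev p (fun i => b (g i)) := by
  simp [ev, MvPolynomial.eval_rename, Function.comp_def]

theorem sq_add_eq_zero {x y : ℤ} (h : x ^ 2 + y = 0) (hy : 0 ≤ y) : x = 0 ∧ y = 0 := by
  have h1 : 0 ≤ x ^ 2 := sq_nonneg x
  have h2 : x ^ 2 = 0 := by omega
  exact ⟨pow_eq_zero_iff (two_ne_zero) |>.1 h2, by omega⟩

theorem sum_sq_eq_zero {ι : Type} (s : Finset ι) (x : ι → ℤ) (h : ∑ i ∈ s, x i ^ 2 = 0) :
    ∀ i ∈ s, x i = 0 := by
  intro i hi
  have := (Finset.sum_eq_zero_iff_of_nonneg (fun i _ => sq_nonneg (x i))).1 h i hi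
  exact pow_eq_zero_iff (two_ne_zero) |>.1 this

theorem SF.congr {R S : (σ → ℕ) → Prop} (h : ∀ a, R a ↔ S a) (hR : SF R) : SF S := by
  have : R = S := funext fun a => propext (h a)
  rwa [← this]

/-- Polynomial equations. -/
theorem SF.eq0 (p : MvPolynomial σ ℤ) : SF (fun a => ev p a = 0) := by
  refine ⟨Empty, inferInstance, rename Sum.inl p, ?_, ?_, ?_⟩
  · intro a h
    refine ⟨Empty.elim, ?_⟩
    rw [ev_rename]
    exact h
  · intro a w h
    rw [ev_rename] at h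
    exact h
  · intro a w w' _ _
    funext e
    exact e.elim

/-- Polynomial inequalities. -/
theorem SF.pos (p : MvPolynomial σ ℤ) : SF (fun a => 0 < ev p a) := by
  refine ⟨Unit, inferInstance, rename Sum.inl p - C 1 - X (Sum.inr ()), ?_, ?_, ?_⟩
  · intro a h
    refine ⟨fun _ => (ev p a - 1).toNat, ?_⟩
    rw [ev_sub, ev_sub, ev_rename, ev_C, ev_X]
    have e : ev p (fun i => Sum.elim a (fun _ : Unit => (ev p a - 1).toNat) (Sum.inl i)) =
        ev p a := rfl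
    rw [e]
    simp only [Sum.elim_inr]
    omega
  · intro a w h
    rw [ev_sub, ev_sub, ev_rename, ev_C, ev_X] at h
    have e : ev p (fun i => Sum.elim a w (Sum.inl i)) = ev p a := rfl
    rw [e] at h
    simp only [Sum.elim_inr] at h
    change 0 < ev p a
    omega
  · intro a w w' h h'
    rw [ev_sub, ev_sub, ev_rename, ev_C, ev_X] at h h'
    have e : ev p a - 1 - ((w () : ℕ) : ℤ) = 0 := h
    have e' : ev p a - 1 - ((w' () : ℕ) : ℤ) = 0 := h'
    funext u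
    have hu : w u = w () := rfl
    have hu' : w' u = w' () := rfl
    omega

/-- Disjoint unions. -/
theorem SF.or {R S : (σ → ℕ) → Prop} (hR : SF R) (hS : SF S) (hd : ∀ a, R a → ¬ S a) :
    SF (fun a => R a ∨ S a) := by
  obtain ⟨κ, _, p, p1, p2, p3⟩ := hR
  obtain ⟨μ, _, q, q1, q2, q3⟩ := hS
  let rp : σ ⊕ κ → σ ⊕ (κ ⊕ μ) := Sum.elim Sum.inl (fun k => Sum.inr (Sum.inl k))
  let rq : σ ⊕ μ → σ ⊕ (κ ⊕ μ) := Sum.elim Sum.inl (fun k => Sum.inr (Sum.inr k))
  let A : MvPolynomial (σ ⊕ (κ ⊕ μ)) ℤ := (rename rp p) ^ 2 + ∑ k : μ, (X (Sum.inr (Sum.inr k))) ^ 2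
  let B : MvPolynomial (σ ⊕ (κ ⊕ μ)) ℤ := (rename rq q) ^ 2 + ∑ k : κ, (X (Sum.inr (Sum.inl k))) ^ 2
  have hA : ∀ a (w : κ ⊕ μ → ℕ), ev A (Sum.elim a w) =
      (ev p (Sum.elim a (fun k => w (Sum.inl k)))) ^ 2 + ∑ k : μ, ((w (Sum.inr k) : ℕ) : ℤ) ^ 2 := by
    intro a w
    simp only [A, ev_add, ev_pow, ev_sum, ev_X, ev_rename]
    congr 2
    congr 1
    funext i
    cases i <;> rfl
  have hB : ∀ a (w : κ ⊕ μ → ℕ), ev B (Sum.elim a w) =
      (ev q (Sum.elim a (fun k => w (Sum.inr k)))) ^ 2 + ∑ k : κ, ((w (Sum.inl k) : ℕ) : ℤ) ^ 2 := by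
    intro a w
    simp only [B, ev_add, ev_pow, ev_sum, ev_X, ev_rename]
    congr 2
    congr 1
    funext i
    cases i <;> rfl
  have hA0 : ∀ a (w : κ ⊕ μ → ℕ), ev A (Sum.elim a w) = 0 →
      ev p (Sum.elim a (fun k => w (Sum.inl k))) = 0 ∧ ∀ k : μ, w (Sum.inr k) = 0 := by
    intro a w h
    rw [hA] at h
    obtain ⟨h1, h2⟩ := sq_add_eq_zero h (Finset.sum_nonneg fun k _ => sq_nonneg _)
    refine ⟨h1, fun k => ?_⟩
    have := sum_sq_eq_zero _ _ h2 k (Finset.mem_univ k)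
    exact_mod_cast this
  have hB0 : ∀ a (w : κ ⊕ μ → ℕ), ev B (Sum.elim a w) = 0 →
      ev q (Sum.elim a (fun k => w (Sum.inr k))) = 0 ∧ ∀ k : κ, w (Sum.inl k) = 0 := by
    intro a w h
    rw [hB] at h
    obtain ⟨h1, h2⟩ := sq_add_eq_zero h (Finset.sum_nonneg fun k _ => sq_nonneg _)
    refine ⟨h1, fun k => ?_⟩
    have := sum_sq_eq_zero _ _ h2 k (Finset.mem_univ k)
    exact_mod_cast this
  refine ⟨κ ⊕ μ, inferInstance, A * B, ?_, ?_, ?_⟩
  · rintro a (h | h)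
    · obtain ⟨w, hw⟩ := p1 a h
      refine ⟨Sum.elim w (fun _ => 0), ?_⟩
      rw [ev_mul, hA]
      simp [hw]
    · obtain ⟨w, hw⟩ := q1 a h
      refine ⟨Sum.elim (fun _ => 0) w, ?_⟩
      rw [ev_mul, hB]
      simp [hw]
  · intro a w h
    rw [ev_mul] at h
    rcases mul_eq_zero.1 h with h | h
    · exact Or.inl (p2 a _ (hA0 a w h).1)
    · exact Or.inr (q2 a _ (hB0 a w h).1)
  · intro a w w' h h'
    rw [ev_mul] at h h'
    rcases mul_eq_zero.1 h with h | h <;> rcases mul_eq_zero.1 h' with h' | h'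
    · obtain ⟨h1, h2⟩ := hA0 a w h
      obtain ⟨h1', h2'⟩ := hA0 a w' h'
      have e := p3 a _ _ h1 h1'
      funext k
      rcases k with k | k
      · exact congrFun e k
      · rw [h2, h2']
    · exact absurd (q2 a _ (hB0 a w' h').1) (hd a (p2 a _ (hA0 a w h).1))
    · exact absurd (q2 a _ (hB0 a w h).1) (hd a (p2 a _ (hA0 a w' h').1))
    · obtain ⟨h1, h2⟩ := hB0 a w h
      obtain ⟨h1', h2'⟩ := hB0 a w' h'
      have e := q3 a _ _ h1 h1'
      funext k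
      rcases k with k | k
      · rw [h2, h2']
      · exact congrFun e k

/-- Intersections. -/
theorem SF.and {R S : (σ → ℕ) → Prop} (hR : SF R) (hS : SF S) :
    SF (fun a => R a ∧ S a) := by
  obtain ⟨κ, _, p, p1, p2, p3⟩ := hR
  obtain ⟨μ, _, q, q1, q2, q3⟩ := hS
  let rp : σ ⊕ κ → σ ⊕ (κ ⊕ μ) := Sum.elim Sum.inl (fun k => Sum.inr (Sum.inl k))
  let rq : σ ⊕ μ → σ ⊕ (κ ⊕ μ) := Sum.elim Sum.inl (fun k => Sum.inr (Sum.inr k))
  let A : MvPolynomial (σ ⊕ (κ ⊕ μ)) ℤ := (rename rp p) ^ 2 + (rename rq q) ^ 2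
  have hA : ∀ a (w : κ ⊕ μ → ℕ), ev A (Sum.elim a w) =
      (ev p (Sum.elim a (fun k => w (Sum.inl k)))) ^ 2 +
        (ev q (Sum.elim a (fun k => w (Sum.inr k)))) ^ 2 := by
    intro a w
    simp only [A, ev_add, ev_pow, ev_rename]
    congr 2
    · congr 1
      funext i
      cases i <;> rfl
    · congr 1
      funext i
      cases i <;> rfl
  have hA0 : ∀ a (w : κ ⊕ μ → ℕ), ev A (Sum.elim a w) = 0 →
      ev p (Sum.elim a (fun k => w (Sum.inl k))) = 0 ∧
        ev q (Sum.elim a (fun k => w (Sum.inr k))) = 0 := by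
    intro a w h
    rw [hA] at h
    obtain ⟨h1, h2⟩ := sq_add_eq_zero h (sq_nonneg _)
    exact ⟨h1, pow_eq_zero_iff (two_ne_zero) |>.1 h2⟩
  refine ⟨κ ⊕ μ, inferInstance, A, ?_, ?_, ?_⟩
  · rintro a ⟨h, h'⟩
    obtain ⟨w, hw⟩ := p1 a h
    obtain ⟨w', hw'⟩ := q1 a h'
    refine ⟨Sum.elim w w', ?_⟩
    rw [hA]
    simp [hw, hw']
  · intro a w h
    exact ⟨p2 a _ (hA0 a w h).1, q2 a _ (hA0 a w h).2⟩
  · intro a w w' h h'
    have e := p3 a _ _ (hA0 a w h).1 (hA0 a w' h').1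
    have e' := q3 a _ _ (hA0 a w h).2 (hA0 a w' h').2
    funext k
    rcases k with k | k
    · exact congrFun e k
    · exact congrFun e' k

/-- Composition with functions whose graphs are single-fold. -/
theorem SF.comp [Fintype τ] {R : (τ → ℕ) → Prop} (hR : SF R) {f : τ → (σ → ℕ) → ℕ}
    (hf : ∀ j, FSF (f j)) : SF (fun a => R (fun j => f j a)) := by
  obtain ⟨κ, _, p, p1, p2, p3⟩ := hR
  choose μ hμ q q1 q2 q3 using hf
  let T : Type := τ ⊕ (κ ⊕ (Σ j, μ j))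
  let rp : τ ⊕ κ → σ ⊕ T :=
    Sum.elim (fun j => Sum.inr (Sum.inl j)) (fun k => Sum.inr (Sum.inr (Sum.inl k)))
  let rq : ∀ j, (σ ⊕ Unit) ⊕ μ j → σ ⊕ T := fun j =>
    Sum.elim (Sum.elim Sum.inl (fun _ => Sum.inr (Sum.inl j)))
      (fun k => Sum.inr (Sum.inr (Sum.inr ⟨j, k⟩)))
  let A : MvPolynomial (σ ⊕ T) ℤ := (rename rp p) ^ 2 + ∑ j, (rename (rq j) (q j)) ^ 2
  have hA : ∀ a (w : T → ℕ), ev A (Sum.elim a w) =
      (ev p (Sum.elim (fun j => w (Sum.inl j)) (fun k => w (Sum.inr (Sum.inl k))))) ^ 2 +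
        ∑ j, (ev (q j) (Sum.elim (Sum.elim a (fun _ => w (Sum.inl j)))
          (fun k => w (Sum.inr (Sum.inr ⟨j, k⟩))))) ^ 2 := by
    intro a w
    simp only [A, ev_add, ev_pow, ev_rename, ev_sum]
    congr 1
    · congr 2
      funext i
      cases i <;> rfl
    · refine Finset.sum_congr rfl fun j _ => ?_
      congr 2
      funext i
      rcases i with (i | i) | i <;> rfl
  have hA0 : ∀ a (w : T → ℕ), ev A (Sum.elim a w) = 0 →
      ev p (Sum.elim (fun j => w (Sum.inl j)) (fun k => w (Sum.inr (Sum.inl k)))) = 0 ∧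
        ∀ j, ev (q j) (Sum.elim (Sum.elim a (fun _ => w (Sum.inl j)))
          (fun k => w (Sum.inr (Sum.inr ⟨j, k⟩)))) = 0 := by
    intro a w h
    rw [hA] at h
    obtain ⟨h1, h2⟩ := sq_add_eq_zero h (Finset.sum_nonneg fun k _ => sq_nonneg _)
    exact ⟨h1, fun j => sum_sq_eq_zero _ _ h2 j (Finset.mem_univ j)⟩
  have hval : ∀ a (w : T → ℕ), ev A (Sum.elim a w) = 0 → ∀ j, w (Sum.inl j) = f j a := by
    intro a w h j
    exact q2 j (Sum.elim a (fun _ => w (Sum.inl j))) _ ((hA0 a w h).2 j)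
  refine ⟨T, inferInstance, A, ?_, ?_, ?_⟩
  · intro a h
    obtain ⟨w, hw⟩ := p1 _ h
    have h1 : ∀ j, ∃ w' : μ j → ℕ,
        ev (q j) (Sum.elim (Sum.elim a (fun _ => f j a)) w') = 0 := fun j => q1 j _ rfl
    choose w' hw' using h1
    refine ⟨Sum.elim (fun j => f j a) (Sum.elim w (fun k => w' k.1 k.2)), ?_⟩
    rw [hA]
    simp only [Sum.elim_inl, Sum.elim_inr]
    rw [hw]
    simp [hw']
  · intro a w h
    have h1 := p2 _ _ (hA0 a w h).1
    have e : (fun j => w (Sum.inl j)) = fun j => f j a := funext fun j => hval a w h j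
    rwa [e] at h1
  · intro a w w' h h'
    have e : (fun j => w (Sum.inl j)) = fun j => w' (Sum.inl j) :=
      funext fun j => (hval a w h j).trans (hval a w' h' j).symm
    have h1 := (hA0 a w h).1
    have h1' := (hA0 a w' h').1
    rw [e] at h1
    have e2 := p3 _ _ _ h1 h1'
    have e3 : ∀ j, (fun k => w (Sum.inr (Sum.inr ⟨j, k⟩))) =
        fun k => w' (Sum.inr (Sum.inr ⟨j, k⟩)) := by
      intro j
      have h2 := (hA0 a w h).2 j
      have h2' := (hA0 a w' h').2 j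
      rw [congrFun e j] at h2
      exact q3 j _ _ _ h2 h2'
    funext k
    rcases k with k | k | ⟨j, k⟩
    · exact congrFun e k
    · exact congrFun e2 k
    · exact congrFun (e3 j) k

/-- Relations which are single-fold together with their complements. -/
def DD (R : (σ → ℕ) → Prop) : Prop := SF R ∧ SF (fun a => ¬ R a)

theorem DD.not {R : (σ → ℕ) → Prop} (h : DD R) : DD (fun a => ¬ R a) :=
  ⟨h.2, h.1.congr fun a => by tauto⟩

theorem DD.congr {R S : (σ → ℕ) → Prop} (h : ∀ a, R a ↔ S a) (hR : DD R) : DD S := by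
  have : R = S := funext fun a => propext (h a)
  rwa [← this]

theorem DD.and {R S : (σ → ℕ) → Prop} (hR : DD R) (hS : DD S) : DD (fun a => R a ∧ S a) := by
  refine ⟨hR.1.and hS.1, ?_⟩
  refine (SF.or hR.2 (hR.1.and hS.2) (fun a h h' => h h'.1)).congr fun a => ?_
  tauto

theorem DD.or {R S : (σ → ℕ) → Prop} (hR : DD R) (hS : DD S) : DD (fun a => R a ∨ S a) :=
  (hR.not.and hS.not).not.congr fun a => by tauto

theorem DD.comp [Fintype τ] {R : (τ → ℕ) → Prop} (hR : DD R) {f : τ → (σ → ℕ) → ℕ}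
    (hf : ∀ j, FSF (f j)) : DD (fun a => R (fun j => f j a)) :=
  ⟨hR.1.comp hf, hR.2.comp hf⟩

theorem DD.eq0 (p : MvPolynomial σ ℤ) : DD (fun a => ev p a = 0) := by
  refine ⟨SF.eq0 p, ?_⟩
  refine (SF.or (SF.pos p) (SF.pos (C 0 - p)) ?_).congr fun a => ?_
  · intro a h h'
    rw [ev_sub, ev_C] at h'
    omega
  · rw [ev_sub, ev_C]
    omega

theorem DD.pos (p : MvPolynomial σ ℤ) : DD (fun a => 0 < ev p a) := by
  refine ⟨SF.pos p, ?_⟩
  refine (SF.pos (C 1 - p)).congr fun a => ?_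
  rw [ev_sub, ev_C]
  omega

/-- Projections. -/
theorem FSF.proj (i : σ) : FSF (fun a => a i) := by
  refine (SF.eq0 (X (Sum.inr ()) - X (Sum.inl i))).congr fun b => ?_
  rw [ev_sub, ev_X, ev_X]
  change _ ↔ b (Sum.inr ()) = b (Sum.inl i)
  omega

/-- Polynomials with natural values. -/
theorem FSF.poly (p : MvPolynomial σ ℤ) (f : (σ → ℕ) → ℕ) (h : ∀ a, (f a : ℤ) = ev p a) :
    FSF f := by
  refine (SF.eq0 (X (Sum.inr ()) - rename Sum.inl p)).congr fun b => ?_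
  rw [ev_sub, ev_X, ev_rename, ← h]
  omega

theorem FSF.const (c : ℕ) : FSF (fun _ : σ → ℕ => c) :=
  FSF.poly (C c) _ fun a => by rw [ev_C]

/-- Weakening. -/
theorem FSF.weaken [Fintype σ] {f : (σ → ℕ) → ℕ} (hf : FSF f) (g : σ → τ) :
    FSF (fun b : τ → ℕ => f (fun i => b (g i))) := by
  refine SF.comp (τ := σ ⊕ Unit)
    (f := Sum.elim (fun i (b : τ ⊕ Unit → ℕ) => b (Sum.inl (g i))) (fun _ b => b (Sum.inr ())))
    hf ?_
  rintro (i | i)
  · exact FSF.proj _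
  · exact FSF.proj _

/-- Composition of functions. -/
theorem FSF.comp [Fintype σ] [Fintype τ] {h : (τ → ℕ) → ℕ} (hh : FSF h) {f : τ → (σ → ℕ) → ℕ}
    (hf : ∀ j, FSF (f j)) : FSF (fun a => h (fun j => f j a)) := by
  refine SF.comp (τ := τ ⊕ Unit)
    (f := Sum.elim (fun j (b : σ ⊕ Unit → ℕ) => f j (fun i => b (Sum.inl i)))
      (fun _ b => b (Sum.inr ()))) hh ?_
  rintro (i | i)
  · exact (hf i).weaken Sum.inl
  · exact FSF.proj _

/-- Definition by cases. -/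
theorem FSF.ite [Fintype σ] {D : (σ → ℕ) → Prop} [DecidablePred D] (hD : DD D)
    {g h : (σ → ℕ) → ℕ} (hg : FSF g) (hh : FSF h) : FSF (fun a => if D a then g a else h a) := by
  have h1 : DD (fun b : σ ⊕ Unit → ℕ => D (fun i => b (Sum.inl i))) :=
    hD.comp (f := fun i (b : σ ⊕ Unit → ℕ) => b (Sum.inl i)) fun i => FSF.proj _
  refine (SF.or (h1.1.and hg) (h1.2.and hh) (fun b x y => y.1 x.1)).congr fun b => ?_
  by_cases hb : D (fun i => b (Sum.inl i))
  · simp [hb]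
  · simp [hb]

/-- Comparison of two functions. -/
theorem DD.lt [Fintype σ] {g h : (σ → ℕ) → ℕ} (hg : FSF g) (hh : FSF h) :
    DD (fun a => g a < h a) := by
  refine ((DD.pos (σ := Bool) (X true - X false)).comp
    (f := fun b => if b then h else g) ?_).congr fun a => ?_
  · intro b
    cases b
    · exact hg
    · exact hh
  · rw [ev_sub, ev_X, ev_X]
    simp

end

end Vale.Agent.P345s
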