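import Mathlib

/-!
# P345s: single-fold representations and the class of search functions
-/

namespace Vale.Agent.P345s

/-- The value of an integer polynomial at a point with natural coordinates. -/
noncomputable def ev {σ : Type} (p : MvPolynomial σ ℤ) (a : σ → ℕ) : ℤ :=
  MvPolynomial.eval (fun i => (a i : ℤ)) p

/-- `S ⊆ ℕⁿ` has a single-fold Diophantine representation: there is an integer polynomial `P` in
the `n` parameters and `m` unknowns such that for every `a`, `a ∈ S` if and only if `P (a, w) = 0`
for some `w ∈ ℕᵐ`, and there is at most one such `w`. -/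
def SingleFold {n : ℕ} (S : Set (Fin n → ℕ)) : Prop :=
  ∃ (m : ℕ) (P : MvPolynomial (Fin n ⊕ Fin m) ℤ), ∀ a : Fin n → ℕ,
    (a ∈ S ↔ ∃ w : Fin m → ℕ, ev P (Sum.elim a w) = 0) ∧
      ∀ w w' : Fin m → ℕ, ev P (Sum.elim a w) = 0 → ev P (Sum.elim a w') = 0 → w = w'

/-- The signs of the integer polynomials `P i` in `n` parameters and one unknown, at the
parameters `a` and the value `x` of the unknown. -/
noncomputable def signs {n r : ℕ} (P : Fin r → MvPolynomial (Fin n ⊕ Unit) ℤ) (a : Fin n → ℕ)
    (x : ℕ) : Fin r → SignType :=
  fun i => SignType.sign (ev (P i) (Sum.elim a (fun _ => x)))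

/-- The smallest class of functions `ℕⁿ → ℕ` (all `n`) which contains the integer polynomials with
natural values and the greatest common divisor, and is closed under composition and under search
for one unknown: the value is the least `x` for which the signs of finitely many integer
polynomials at `(a, x)` form a pattern of a given set `C`, and zero if there is no such `x`. -/
inductive Search : (n : ℕ) → ((Fin n → ℕ) → ℕ) → Prop
  | poly {n : ℕ} (p : MvPolynomial (Fin n) ℤ) (f : (Fin n → ℕ) → ℕ)
      (h : ∀ a, (f a : ℤ) = ev p a) : Search n f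
  | comp {n k : ℕ} (h : (Fin k → ℕ) → ℕ) (g : Fin k → (Fin n → ℕ) → ℕ) (hh : Search k h)
      (hg : ∀ j, Search n (g j)) : Search n (fun a => h (fun j => g j a))
  | search {n r : ℕ} (P : Fin r → MvPolynomial (Fin n ⊕ Unit) ℤ) (C : Set (Fin r → SignType)) :
      Search n (fun a => sInf {x : ℕ | signs P a x ∈ C})
  | gcd : Search 2 (fun a => Nat.gcd (a 0) (a 1))

end Vale.Agent.P345s
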