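import Vale.Agent.P345s.Two

/-!
# P345s: the main theorem
-/

namespace Vale.Agent.P345s

open MvPolynomial

/-- All search functions have single-fold graphs. -/
theorem fsf_of_search {n : ℕ} {f : (Fin n → ℕ) → ℕ} (h : Search n f) : FSF f := by
  induction h with
  | poly p f h => exact FSF.poly p f h
  | comp h g hh hg ih1 ih2 => exact ih1.comp ih2
  | search P C => exact fsf_search P C
  | gcd => exact FSF.gcd (FSF.proj 0) (FSF.proj 1)

/-- Absolute values of integer polynomials. -/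
theorem FSF.natAbs {σ : Type} (p : MvPolynomial σ ℤ) : FSF (fun a => (ev p a).natAbs) := by
  refine (SF.eqP (X (Sum.inr ()) ^ 2) (rename Sum.inl p ^ 2)).congr fun b => ?_
  rw [ev_pow, ev_pow, ev_X, ev_rename]
  change ((b (Sum.inr ()) : ℕ) : ℤ) ^ 2 = _ ↔ b (Sum.inr ()) = (ev p fun i => b (Sum.inl i)).natAbs
  rw [← Int.natAbs_eq_iff_sq_eq, Int.natAbs_natCast]

theorem crit3 (α β γ : ℤ) : (∃ x y : ℕ, α * x + β * y = γ) ↔
    ((¬ 0 < -α ∧ ¬ 0 < -β) ∧ (¬ 0 < -γ ∧
      ∃ x y : ℕ, α.natAbs * x + β.natAbs * y = γ.natAbs)) ∨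
    ((¬ 0 < -α ∧ 0 < -β) ∧ (¬ 0 < -γ ∧ ∃ x y : ℕ, α.natAbs * x = β.natAbs * y + γ.natAbs)) ∨
    ((¬ 0 < -α ∧ 0 < -β) ∧ (0 < -γ ∧ ∃ x y : ℕ, β.natAbs * x = α.natAbs * y + γ.natAbs)) ∨
    ((0 < -α ∧ ¬ 0 < -β) ∧ (¬ 0 < -γ ∧ ∃ x y : ℕ, β.natAbs * x = α.natAbs * y + γ.natAbs)) ∨
    ((0 < -α ∧ ¬ 0 < -β) ∧ (0 < -γ ∧ ∃ x y : ℕ, α.natAbs * x = β.natAbs * y + γ.natAbs)) ∨
    ((0 < -α ∧ 0 < -β) ∧ (¬ 0 < γ ∧
      ∃ x y : ℕ, α.natAbs * x + β.natAbs * y = γ.natAbs)) := by
  obtain ⟨A, hA⟩ : ∃ A, A = α.natAbs := ⟨_, rfl⟩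
  obtain ⟨B, hB⟩ : ∃ B, B = β.natAbs := ⟨_, rfl⟩
  obtain ⟨G, hG⟩ : ∃ G, G = γ.natAbs := ⟨_, rfl⟩
  rw [← hA, ← hB, ← hG]
  by_cases ha : 0 < -α <;> by_cases hb : 0 < -β
  · -- both negative
    have a1 : α = -(A : ℤ) := by omega
    have b1 : β = -(B : ℤ) := by omega
    constructor
    · rintro ⟨x, y, h⟩
      rw [a1, b1] at h
      have h1 : (0 : ℤ) ≤ (A : ℤ) * x := by positivity
      have h2 : (0 : ℤ) ≤ (B : ℤ) * y := by positivity
      have h3 : ¬ 0 < γ := by linarith
      have h4 : (G : ℤ) = -γ := by omega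
      refine Or.inr (Or.inr (Or.inr (Or.inr (Or.inr ⟨⟨ha, hb⟩, h3, x, y, ?_⟩))))
      zify
      linarith
    · rintro (h | h | h | h | h | ⟨-, h3, x, y, h⟩)
      · exact absurd ha h.1.1
      · exact absurd ha h.1.1
      · exact absurd ha h.1.1
      · exact absurd hb h.1.2
      · exact absurd hb h.1.2
      · have h4 : (G : ℤ) = -γ := by omega
        refine ⟨x, y, ?_⟩
        rw [a1, b1]
        zify at h
        linarith
  · have a1 : α = -(A : ℤ) := by omega
    have b1 : β = (B : ℤ) := by omega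
    by_cases hc : 0 < -γ
    · have h4 : γ = -(G : ℤ) := by omega
      constructor
      · rintro ⟨x, y, h⟩
        rw [a1, b1, h4] at h
        refine Or.inr (Or.inr (Or.inr (Or.inr (Or.inl ⟨⟨ha, hb⟩, hc, x, y, ?_⟩))))
        zify
        linarith
      · rintro (h | h | h | h | ⟨-, -, x, y, h⟩ | h)
        · exact absurd ha h.1.1
        · exact absurd ha h.1.1
        · exact absurd ha h.1.1
        · exact absurd hc h.2.1
        · refine ⟨x, y, ?_⟩
          rw [a1, b1, h4]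
          zify at h
          linarith
        · exact absurd h.1.2 hb
    · have h4 : γ = (G : ℤ) := by omega
      constructor
      · rintro ⟨x, y, h⟩
        rw [a1, b1, h4] at h
        refine Or.inr (Or.inr (Or.inr (Or.inl ⟨⟨ha, hb⟩, hc, y, x, ?_⟩)))
        zify
        linarith
      · rintro (h | h | h | ⟨-, -, x, y, h⟩ | h | h)
        · exact absurd ha h.1.1
        · exact absurd ha h.1.1
        · exact absurd ha h.1.1
        · refine ⟨y, x, ?_⟩
          rw [a1, b1, h4]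
          zify at h
          linarith
        · exact absurd h.2.1 hc
        · exact absurd h.1.2 hb
  · have a1 : α = (A : ℤ) := by omega
    have b1 : β = -(B : ℤ) := by omega
    by_cases hc : 0 < -γ
    · have h4 : γ = -(G : ℤ) := by omega
      constructor
      · rintro ⟨x, y, h⟩
        rw [a1, b1, h4] at h
        refine Or.inr (Or.inr (Or.inl ⟨⟨ha, hb⟩, hc, y, x, ?_⟩))
        zify
        linarith
      · rintro (h | h | ⟨-, -, x, y, h⟩ | h | h | h)
        · exact absurd hb h.1.2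
        · exact absurd hc h.2.1
        · refine ⟨y, x, ?_⟩
          rw [a1, b1, h4]
          zify at h
          linarith
        · exact absurd h.1.1 ha
        · exact absurd h.1.1 ha
        · exact absurd h.1.1 ha
    · have h4 : γ = (G : ℤ) := by omega
      constructor
      · rintro ⟨x, y, h⟩
        rw [a1, b1, h4] at h
        refine Or.inr (Or.inl ⟨⟨ha, hb⟩, hc, x, y, ?_⟩)
        zify
        linarith
      · rintro (h | ⟨-, -, x, y, h⟩ | h | h | h | h)
        · exact absurd hb h.1.2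
        · refine ⟨x, y, ?_⟩
          rw [a1, b1, h4]
          zify at h
          linarith
        · exact absurd h.2.1 hc
        · exact absurd h.1.1 ha
        · exact absurd h.1.1 ha
        · exact absurd h.1.1 ha
  · have a1 : α = (A : ℤ) := by omega
    have b1 : β = (B : ℤ) := by omega
    constructor
    · rintro ⟨x, y, h⟩
      rw [a1, b1] at h
      have h1 : (0 : ℤ) ≤ (A : ℤ) * x := by positivity
      have h2 : (0 : ℤ) ≤ (B : ℤ) * y := by positivity
      have h3 : ¬ 0 < -γ := by linarith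
      have h4 : (G : ℤ) = γ := by omega
      refine Or.inl ⟨⟨ha, hb⟩, h3, x, y, ?_⟩
      zify
      linarith
    · rintro (⟨-, h3, x, y, h⟩ | h | h | h | h | h)
      · have h4 : (G : ℤ) = γ := by omega
        refine ⟨x, y, ?_⟩
        rw [a1, b1]
        zify at h
        linarith
      · exact absurd h.1.2 hb
      · exact absurd h.1.2 hb
      · exact absurd h.1.1 ha
      · exact absurd h.1.1 ha
      · exact absurd h.1.1 ha

/-- Two natural unknowns which occur linearly. -/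
theorem dd_two {σ : Type} [Fintype σ] (α β γ : MvPolynomial σ ℤ) :
    DD (fun a => ∃ x y : ℕ, ev α a * x + ev β a * y = ev γ a) := by
  have hs : ∀ p : MvPolynomial σ ℤ, DD (fun a => 0 < -(ev p a)) := fun p =>
    (DD.pos (C 0 - p)).congr fun a => by rw [ev_sub, ev_C, zero_sub]
  have hA := FSF.natAbs α
  have hB := FSF.natAbs β
  have hG := FSF.natAbs γ
  have l1 := dd_lin1 hA hB hG
  have l2 := dd_lin2 hA hB hG
  have l3 := dd_lin2 hB hA hG
  refine DD.congr (fun a => (crit3 (ev α a) (ev β a) (ev γ a)).symm) ?_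
  exact (((hs α).not.and (hs β).not).and ((hs γ).not.and l1)).or
    ((((hs α).not.and (hs β)).and ((hs γ).not.and l2)).or
    ((((hs α).not.and (hs β)).and ((hs γ).and l3)).or
    ((((hs α).and (hs β).not).and ((hs γ).not.and l3)).or
    ((((hs α).and (hs β).not).and ((hs γ).and l2)).or
    (((hs α).and (hs β)).and ((DD.pos γ).not.and l1))))))

theorem main (n : ℕ) :
    (∀ f : (Fin n → ℕ) → ℕ, Search n f →
      SingleFold {b : Fin (n + 1) → ℕ | b (Fin.last n) = f (fun i => b i.castSucc)}) ∧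
    (∀ f g h : (Fin n → ℕ) → ℕ, Search n f → Search n g → Search n h →
      SingleFold {a | f a = g a} ∧ SingleFold {a | f a ≠ g a} ∧ SingleFold {a | f a < g a} ∧
      SingleFold {a | ∃ x y : ℕ, f a * x + g a * y = h a} ∧
      SingleFold {a | ¬ ∃ x y : ℕ, f a * x + g a * y = h a} ∧
      SingleFold {a | ∃ x y : ℕ, f a * x = g a * y + h a} ∧
      SingleFold {a | ¬ ∃ x y : ℕ, f a * x = g a * y + h a}) ∧
    (∀ (k r : ℕ) (g : Fin k → (Fin n → ℕ) → ℕ) (P : Fin r → MvPolynomial (Fin k ⊕ Unit) ℤ)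
      (C : Set (Fin r → SignType)), (∀ j, Search n (g j)) →
        SingleFold {a | ∃ x : ℕ, signs P (fun j => g j a) x ∈ C} ∧
          SingleFold {a | ∀ x : ℕ, signs P (fun j => g j a) x ∈ C}) ∧
    (∀ P : MvPolynomial (Fin n ⊕ Unit) ℤ,
      SingleFold {a | ∃ x : ℕ, ev P (Sum.elim a (fun _ => x)) = 0} ∧
        SingleFold {a | ¬ ∃ x : ℕ, ev P (Sum.elim a (fun _ => x)) = 0}) ∧
    (∀ α β γ : MvPolynomial (Fin n) ℤ,
      SingleFold {a | ∃ x y : ℕ, ev α a * x + ev β a * y = ev γ a} ∧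
        SingleFold {a | ¬ ∃ x y : ℕ, ev α a * x + ev β a * y = ev γ a}) ∧
    (∀ S T : Set (Fin n → ℕ), SingleFold S → SingleFold Sᶜ → SingleFold T → SingleFold Tᶜ →
      SingleFold (S ∩ T) ∧ SingleFold (S ∩ T)ᶜ) := by
  refine ⟨fun f hf => singleFold_graph (fsf_of_search hf), fun f g h hf hg hh => ?_,
    fun k r g P C hg => ?_, fun P => ?_, fun α β γ => ?_, fun S T h1 h2 h3 h4 => ?_⟩
  · have hf' := fsf_of_search hf
    have hg' := fsf_of_search hg
    have hh' := fsf_of_search hh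
    have h1 := DD.eq hf' hg'
    have h2 := dd_lin1 hf' hg' hh'
    have h3 := dd_lin2 hf' hg' hh'
    exact ⟨singleFold_of_SF h1.1, singleFold_of_SF h1.2, singleFold_of_SF (DD.lt hf' hg').1,
      singleFold_of_SF h2.1, singleFold_of_SF h2.2, singleFold_of_SF h3.1, singleFold_of_SF h3.2⟩
  · refine ⟨singleFold_of_SF ((dd_exists P C).comp fun j => fsf_of_search (hg j)).1, ?_⟩
    have h1 := ((dd_exists P Cᶜ).comp fun j => fsf_of_search (hg j)).2
    have e : {a : Fin n → ℕ | ∀ x : ℕ, signs P (fun j => g j a) x ∈ C} =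
        {a | ¬ ∃ x : ℕ, signs P (fun j => g j a) x ∈ Cᶜ} := by
      ext a
      simp
    rw [e]
    exact singleFold_of_SF h1
  · have h1 := dd_exists (r := 1) (fun _ => P) {s | s 0 = 0}
    have e : ∀ a : Fin n → ℕ, (∃ x : ℕ, signs (fun _ : Fin 1 => P) a x ∈ {s | s 0 = 0}) ↔
        ∃ x : ℕ, ev P (Sum.elim a (fun _ => x)) = 0 := by
      intro a
      refine exists_congr fun x => ?_
      change SignType.sign (ev P (Sum.elim a (fun _ => x))) = 0 ↔ _
      exact sign_eq_zero_iff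
    have h2 := h1.congr e
    exact ⟨singleFold_of_SF h2.1, singleFold_of_SF h2.2⟩
  · have h1 := dd_two α β γ
    exact ⟨singleFold_of_SF h1.1, singleFold_of_SF h1.2⟩
  · have hS : DD (fun a => a ∈ S) := ⟨SF_of_singleFold h1, SF_of_singleFold h2⟩
    have hT : DD (fun a => a ∈ T) := ⟨SF_of_singleFold h3, SF_of_singleFold h4⟩
    have h5 := hS.and hT
    exact ⟨singleFold_of_SF h5.1, singleFold_of_SF h5.2⟩

end Vale.Agent.P345s
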