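import Vale.Agent.P345s.Lin

/-!
# P345s: division, greatest common divisors and linear equations
-/

namespace Vale.Agent.P345s

open MvPolynomial

variable {σ κ : Type}

theorem SF.eqP (p q : MvPolynomial σ ℤ) : SF (fun a => ev p a = ev q a) :=
  (SF.eq0 (p - q)).congr fun a => by rw [ev_sub, sub_eq_zero]

theorem SF.ltP (p q : MvPolynomial σ ℤ) : SF (fun a => ev p a < ev q a) :=
  (SF.pos (q - p)).congr fun a => by rw [ev_sub, sub_pos]

/-- The certificate for division with remainder. -/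
def Rdiv (b : Fin 2 ⊕ Fin 2 → ℕ) : Prop :=
  (0 < b (Sum.inl 1) ∧ b (Sum.inl 0) = b (Sum.inl 1) * b (Sum.inr 0) + b (Sum.inr 1) ∧
    b (Sum.inr 1) < b (Sum.inl 1)) ∨
  (b (Sum.inl 1) = 0 ∧ b (Sum.inr 0) = 0 ∧ b (Sum.inr 1) = b (Sum.inl 0))

theorem sf_Rdiv : SF Rdiv := by
  refine (SF.or (SF.and (SF.ltP (C 0) (X (Sum.inl 1)))
    (SF.and (SF.eqP (X (Sum.inl 0)) (X (Sum.inl 1) * X (Sum.inr 0) + X (Sum.inr 1)))
      (SF.ltP (X (Sum.inr 1)) (X (Sum.inl 1)))))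
    (SF.and (SF.eqP (X (Sum.inl 1)) (C 0)) (SF.and (SF.eqP (X (Sum.inr 0)) (C 0))
      (SF.eqP (X (Sum.inr 1)) (X (Sum.inl 0))))) ?_).congr fun b => ?_
  · intro a h h'
    have h1 := h.1
    have h2 := h'.1
    rw [ev_C, ev_X] at h1
    rw [ev_C, ev_X] at h2
    omega
  · simp only [ev_C, ev_X, ev_mul, ev_add]
    unfold Rdiv
    norm_cast

theorem fsf_div : FSF (fun a : Fin 2 → ℕ => a 0 / a 1) ∧ FSF (fun a : Fin 2 → ℕ => a 0 % a 1) := by
  have h := FSF.of_uniq sf_Rdiv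
    (fun (k : Fin 2) (a : Fin 2 → ℕ) => (![a 0 / a 1, a 0 % a 1] : Fin 2 → ℕ) k) (by
      intro a w
      constructor
      · intro h
        funext k
        rcases h with ⟨h1, h2, h3⟩ | ⟨h1, h2, h3⟩
        · have h1' : 0 < a 1 := h1
          have h2' : a 0 = a 1 * w 0 + w 1 := h2
          have h3' : w 1 < a 1 := h3
          have e1 : a 0 / a 1 = w 0 := by
            rw [h2', Nat.mul_add_div h1', Nat.div_eq_of_lt h3', add_zero]
          have e2 : a 0 % a 1 = w 1 := by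
            rw [h2', Nat.mul_add_mod, Nat.mod_eq_of_lt h3']
          fin_cases k
          · exact e1.symm
          · exact e2.symm
        · have h1' : a 1 = 0 := h1
          have h2' : w 0 = 0 := h2
          have h3' : w 1 = a 0 := h3
          fin_cases k
          · simp [h1', h2']
          · simp [h1', h3']
      · intro h
        rw [h]
        by_cases h0 : a 1 = 0
        · right
          exact ⟨h0, by simp [h0], by simp [h0]⟩
        · left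
          exact ⟨Nat.pos_of_ne_zero h0, (Nat.div_add_mod (a 0) (a 1)).symm,
            Nat.mod_lt _ (Nat.pos_of_ne_zero h0)⟩)
  exact ⟨h 0, h 1⟩

/-- Division of two functions. -/
theorem FSF.div [Fintype σ] {f g : (σ → ℕ) → ℕ} (hf : FSF f) (hg : FSF g) :
    FSF (fun a => f a / g a) := by
  refine (fsf_div.1.comp (f := ![f, g]) ?_)
  intro j
  fin_cases j
  · exact hf
  · exact hg

theorem FSF.mod [Fintype σ] {f g : (σ → ℕ) → ℕ} (hf : FSF f) (hg : FSF g) :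
    FSF (fun a => f a % g a) := by
  refine (fsf_div.2.comp (f := ![f, g]) ?_)
  intro j
  fin_cases j
  · exact hf
  · exact hg

theorem FSF.mul [Fintype σ] {f g : (σ → ℕ) → ℕ} (hf : FSF f) (hg : FSF g) :
    FSF (fun a => f a * g a) := by
  have h0 : FSF (fun b : Fin 2 → ℕ => b 0 * b 1) :=
    FSF.poly (X 0 * X 1) _ fun a => by rw [ev_mul, ev_X, ev_X]; push_cast; rfl
  refine (h0.comp (f := ![f, g]) ?_)
  intro j
  fin_cases j
  · exact hf
  · exact hg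

/-- The certificate for the greatest common divisor: `w = (g, p', q', s, t)`. -/
def Rgcd (b : Fin 2 ⊕ Fin 5 → ℕ) : Prop :=
  ((0 < b (Sum.inl 0) ∧ 0 < b (Sum.inl 1)) ∧
    (b (Sum.inl 0) = b (Sum.inr 0) * b (Sum.inr 1) ∧
    b (Sum.inl 1) = b (Sum.inr 0) * b (Sum.inr 2)) ∧
    b (Sum.inr 3) * b (Sum.inr 1) = b (Sum.inr 4) * b (Sum.inr 2) + 1 ∧
    0 < b (Sum.inr 3) ∧ b (Sum.inr 3) < b (Sum.inr 2) + 1 ∧ b (Sum.inr 4) < b (Sum.inr 1)) ∨
  (b (Sum.inl 0) * b (Sum.inl 1) = 0 ∧ b (Sum.inr 0) = 0 ∧ b (Sum.inr 1) = 0 ∧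
    b (Sum.inr 2) = 0 ∧ b (Sum.inr 3) = 0 ∧ b (Sum.inr 4) = 0)

theorem sf_Rgcd : SF Rgcd := by
  refine (SF.or (SF.and (SF.and (SF.ltP (C 0) (X (Sum.inl 0))) (SF.ltP (C 0) (X (Sum.inl 1))))
    (SF.and (SF.and (SF.eqP (X (Sum.inl 0)) (X (Sum.inr 0) * X (Sum.inr 1)))
      (SF.eqP (X (Sum.inl 1)) (X (Sum.inr 0) * X (Sum.inr 2))))
    (SF.and (SF.eqP (X (Sum.inr 3) * X (Sum.inr 1)) (X (Sum.inr 4) * X (Sum.inr 2) + C 1))
    (SF.and (SF.ltP (C 0) (X (Sum.inr 3))) (SF.and (SF.ltP (X (Sum.inr 3)) (X (Sum.inr 2) + C 1))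
      (SF.ltP (X (Sum.inr 4)) (X (Sum.inr 1))))))))
    (SF.and (SF.eqP (X (Sum.inl 0) * X (Sum.inl 1)) (C 0))
      (SF.and (SF.eqP (X (Sum.inr 0)) (C 0)) (SF.and (SF.eqP (X (Sum.inr 1)) (C 0))
      (SF.and (SF.eqP (X (Sum.inr 2)) (C 0)) (SF.and (SF.eqP (X (Sum.inr 3)) (C 0))
      (SF.eqP (X (Sum.inr 4)) (C 0))))))) ?_).congr fun b => ?_
  · intro a h h'
    have h1 := h.1.1
    have h2 := h.1.2
    have h3 := h'.1
    rw [ev_C, ev_X] at h1 h2
    rw [ev_mul, ev_C, ev_X, ev_X] at h3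
    have h4 := mul_pos h1 h2
    omega
  · simp only [ev_C, ev_X, ev_mul, ev_add]
    unfold Rgcd
    norm_cast

theorem bezout_exists (x y : ℕ) (hx : 0 < x) (hy : 0 < y) (h : Nat.Coprime x y) :
    ∃ s t : ℕ, s * x = t * y + 1 ∧ 0 < s ∧ s < y + 1 ∧ t < x := by
  rcases Nat.lt_or_ge 1 y with h1 | h1
  · obtain ⟨m, hmy, hm⟩ := Nat.exists_mul_mod_eq_one_of_coprime h h1
    have hdm := Nat.div_add_mod (x * m) y
    rw [hm] at hdm
    have hs0 : 0 < m := by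
      rcases Nat.eq_zero_or_pos m with h0 | h0
      · rw [h0] at hm
        simp at hm
      · exact h0
    refine ⟨m, x * m / y, ?_, hs0, by omega, ?_⟩
    · rw [mul_comm m x, mul_comm (x * m / y) y]
      exact hdm.symm
    · apply Nat.div_lt_of_lt_mul
      rw [mul_comm y x]
      exact Nat.mul_lt_mul_of_pos_left hmy hx
  · have hy1 : y = 1 := by omega
    refine ⟨1, x - 1, ?_, Nat.one_pos, by omega, by omega⟩
    rw [hy1]
    omega

theorem bezout_unique (x y s t s' t' : ℕ) (hy : 0 < y) (h : s * x = t * y + 1)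
    (h' : s' * x = t' * y + 1) (hs : 0 < s) (hs1 : s < y + 1) (hs' : 0 < s') (hs1' : s' < y + 1) :
    s = s' ∧ t = t' := by
  have hcop : Nat.Coprime x y := by
    rw [Nat.coprime_iff_gcd_eq_one]
    have h1 : Nat.gcd x y ∣ s * x := (Nat.gcd_dvd_left x y).mul_left s
    have h2 : Nat.gcd x y ∣ t * y := (Nat.gcd_dvd_right x y).mul_left t
    rw [h] at h1
    exact Nat.dvd_one.1 ((Nat.dvd_add_right h2).1 h1)
  have e1 : s * x ≡ s' * x [MOD y] := by
    rw [h, h']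
    exact ((Nat.modEq_zero_iff_dvd.2 ⟨t, mul_comm _ _⟩).trans
      (Nat.modEq_zero_iff_dvd.2 ⟨t', mul_comm _ _⟩).symm).add_right 1
  have e2 : s ≡ s' [MOD y] := Nat.ModEq.cancel_right_of_coprime hcop.symm e1
  have e3 : s = s' := by
    have e4 : s - 1 ≡ s' - 1 [MOD y] := by
      apply Nat.ModEq.add_right_cancel' 1
      have a1 : s - 1 + 1 = s := by omega
      have a2 : s' - 1 + 1 = s' := by omega
      rw [a1, a2]
      exact e2
    have e5 := Nat.ModEq.eq_of_lt_of_lt e4 (by omega) (by omega)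
    omega
  refine ⟨e3, ?_⟩
  rw [e3, h'] at h
  have : t' * y = t * y := by omega
  exact (Nat.eq_of_mul_eq_mul_right hy this).symm

theorem exists_unique_gcd (a : Fin 2 → ℕ) :
    ∃ w : Fin 5 → ℕ, Rgcd (Sum.elim a w) ∧ ∀ w' : Fin 5 → ℕ, Rgcd (Sum.elim a w') → w' = w := by
  by_cases h0 : a 0 * a 1 = 0
  · refine ⟨fun _ => 0, Or.inr ⟨h0, rfl, rfl, rfl, rfl, rfl⟩, ?_⟩
    rintro w' (⟨⟨h1, h2⟩, -⟩ | ⟨-, h1, h2, h3, h4, h5⟩)
    · have h1' : 0 < a 0 := h1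
      have h2' : 0 < a 1 := h2
      exact absurd h0 (Nat.mul_pos h1' h2').ne'
    · funext k
      fin_cases k
      · exact h1
      · exact h2
      · exact h3
      · exact h4
      · exact h5
  · have hp : 0 < a 0 := Nat.pos_of_ne_zero fun h => h0 (by rw [h, zero_mul])
    have hq : 0 < a 1 := Nat.pos_of_ne_zero fun h => h0 (by rw [h, mul_zero])
    have hg : 0 < Nat.gcd (a 0) (a 1) := Nat.gcd_pos_of_pos_left _ hp
    have hx : 0 < a 0 / Nat.gcd (a 0) (a 1) := Nat.div_pos (Nat.gcd_le_left _ hp) hg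
    have hy : 0 < a 1 / Nat.gcd (a 0) (a 1) := Nat.div_pos (Nat.gcd_le_right _ hq) hg
    obtain ⟨s, t, h1, h2, h3, h4⟩ := bezout_exists _ _ hx hy (Nat.coprime_div_gcd_div_gcd hg)
    refine ⟨![Nat.gcd (a 0) (a 1), a 0 / Nat.gcd (a 0) (a 1), a 1 / Nat.gcd (a 0) (a 1), s, t],
      Or.inl ⟨⟨hp, hq⟩, ⟨(Nat.mul_div_cancel' (Nat.gcd_dvd_left _ _)).symm,
        (Nat.mul_div_cancel' (Nat.gcd_dvd_right _ _)).symm⟩, h1, h2, h3, h4⟩, ?_⟩
    rintro w' (⟨-, ⟨k1, k2⟩, k3, k4, k5, k6⟩ | ⟨h5, -⟩)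
    · have k1' : a 0 = w' 0 * w' 1 := k1
      have k2' : a 1 = w' 0 * w' 2 := k2
      have k3' : w' 3 * w' 1 = w' 4 * w' 2 + 1 := k3
      have k4' : 0 < w' 3 := k4
      have k5' : w' 3 < w' 2 + 1 := k5
      have hcop : Nat.Coprime (w' 1) (w' 2) := by
        rw [Nat.coprime_iff_gcd_eq_one]
        have m1 : Nat.gcd (w' 1) (w' 2) ∣ w' 3 * w' 1 := (Nat.gcd_dvd_left _ _).mul_left _
        have m2 : Nat.gcd (w' 1) (w' 2) ∣ w' 4 * w' 2 := (Nat.gcd_dvd_right _ _).mul_left _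
        rw [k3'] at m1
        exact Nat.dvd_one.1 ((Nat.dvd_add_right m2).1 m1)
      have e0 : Nat.gcd (a 0) (a 1) = w' 0 := by
        rw [k1', k2', Nat.gcd_mul_left, Nat.coprime_iff_gcd_eq_one.1 hcop, mul_one]
      rw [e0] at hg
      have e1 : a 0 / Nat.gcd (a 0) (a 1) = w' 1 := by
        rw [e0, k1', Nat.mul_div_cancel_left _ hg]
      have e2 : a 1 / Nat.gcd (a 0) (a 1) = w' 2 := by
        rw [e0, k2', Nat.mul_div_cancel_left _ hg]
      rw [e1, e2] at h1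
      rw [e2] at h3 hy
      obtain ⟨e3, e4⟩ := bezout_unique _ _ _ _ _ _ hy h1 k3' h2 h3 k4' k5'
      funext k
      fin_cases k
      · exact e0.symm
      · exact e1.symm
      · exact e2.symm
      · exact e3.symm
      · exact e4.symm
    · exact absurd h5 h0

end Vale.Agent.P345s
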