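import Vale.Agent.P345s.Main

/-!
# P345s: unique certificates for linear congruences
-/

namespace Vale.Agent.P345s

open MvPolynomial

variable {σ κ : Type}

/-- Unique unknowns can be quantified. -/
theorem SF.ex [Fintype κ] {R : (σ ⊕ κ → ℕ) → Prop} (hR : SF R)
    (hu : ∀ (a : σ → ℕ) (w w' : κ → ℕ), R (Sum.elim a w) → R (Sum.elim a w') → w = w') :
    SF (fun a => ∃ w : κ → ℕ, R (Sum.elim a w)) := by
  obtain ⟨μ, _, p, p1, p2, p3⟩ := hR
  let g : (σ ⊕ κ) ⊕ μ → σ ⊕ (κ ⊕ μ) :=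
    Sum.elim (Sum.elim Sum.inl (fun k => Sum.inr (Sum.inl k))) (fun m => Sum.inr (Sum.inr m))
  have hev : ∀ (a : σ → ℕ) (w : κ ⊕ μ → ℕ), ev (rename g p) (Sum.elim a w) =
      ev p (Sum.elim (Sum.elim a (fun k => w (Sum.inl k))) (fun m => w (Sum.inr m))) := by
    intro a w
    rw [ev_rename]
    congr 1
    funext i
    rcases i with (i | i) | i <;> rfl
  refine ⟨κ ⊕ μ, inferInstance, rename g p, ?_, ?_, ?_⟩
  · rintro a ⟨w, hw⟩
    obtain ⟨z, hz⟩ := p1 _ hw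
    refine ⟨Sum.elim w z, ?_⟩
    rw [hev]
    exact hz
  · intro a w hw
    rw [hev] at hw
    exact ⟨_, p2 _ _ hw⟩
  · intro a w w' hw hw'
    rw [hev] at hw hw'
    have e := hu a _ _ (p2 _ _ hw) (p2 _ _ hw')
    rw [e] at hw
    have e2 := p3 _ _ _ hw hw'
    funext k
    rcases k with k | k
    · exact congrFun e k
    · exact congrFun e2 k

/-- Functions defined by unique certificates. -/
theorem FSF.of_uniq [Fintype σ] [Fintype κ] {R : (σ ⊕ κ → ℕ) → Prop} (hR : SF R)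
    (F : κ → (σ → ℕ) → ℕ)
    (hF : ∀ (a : σ → ℕ) (w : κ → ℕ), R (Sum.elim a w) ↔ w = fun k => F k a) (k : κ) :
    FSF (F k) := by
  have h1 : SF (fun b : (σ ⊕ Unit) ⊕ κ → ℕ =>
      R (fun j => (Sum.elim (fun i (b : (σ ⊕ Unit) ⊕ κ → ℕ) => b (Sum.inl (Sum.inl i)))
        (fun k b => b (Sum.inr k)) : σ ⊕ κ → _ → ℕ) j b)) := by
    refine SF.comp hR ?_
    rintro (i | i)
    · exact FSF.proj _
    · exact FSF.proj _
  have h2 : SF (fun b : (σ ⊕ Unit) ⊕ κ → ℕ =>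
      ev (X (Sum.inl (Sum.inr ())) - X (Sum.inr k)) b = 0) := SF.eq0 _
  have e : ∀ (b : (σ ⊕ Unit) ⊕ κ → ℕ),
      (fun j => (Sum.elim (fun i (b : (σ ⊕ Unit) ⊕ κ → ℕ) => b (Sum.inl (Sum.inl i)))
        (fun k b => b (Sum.inr k)) : σ ⊕ κ → _ → ℕ) j b) =
      Sum.elim (fun i => b (Sum.inl (Sum.inl i))) (fun k => b (Sum.inr k)) := by
    intro b
    funext j
    rcases j with j | j <;> rfl
  refine (SF.ex (h1.and h2) ?_).congr fun b => ?_
  · intro a w w' h h'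
    have h3 := h.1
    have h3' := h'.1
    rw [e] at h3 h3'
    have h4 := (hF _ _).1 h3
    have h4' := (hF _ _).1 h3'
    have h5 : w = fun k => F k (fun i => a (Sum.inl i)) := h4
    have h5' : w' = fun k => F k (fun i => a (Sum.inl i)) := h4'
    rw [h5, h5']
  · constructor
    · rintro ⟨w, h3, h4⟩
      rw [e] at h3
      have h5 : w = fun k => F k (fun i => b (Sum.inl i)) := (hF _ _).1 h3
      rw [ev_sub, ev_X, ev_X] at h4
      have h6 : ((b (Sum.inr ()) : ℕ) : ℤ) - ((w k : ℕ) : ℤ) = 0 := h4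
      have h7 : w k = F k (fun i => b (Sum.inl i)) := congrFun h5 k
      change b (Sum.inr ()) = F k (fun i => b (Sum.inl i))
      omega
    · intro h3
      refine ⟨fun k => F k (fun i => b (Sum.inl i)), ?_, ?_⟩
      · rw [e]
        exact (hF _ _).2 rfl
      · rw [ev_sub, ev_X, ev_X]
        have h6 : b (Sum.inr ()) = F k (fun i => b (Sum.inl i)) := h3
        change ((b (Sum.inr ()) : ℕ) : ℤ) - ((F k (fun i => b (Sum.inl i)) : ℕ) : ℤ) = 0
        omega

end Vale.Agent.P345s
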