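import Vale.Agent.P345s.Poly

/-!
# P345s: search functions have single-fold graphs
-/

namespace Vale.Agent.P345s

open MvPolynomial

theorem search_core {σ : Type} [Fintype σ] (r : ℕ) (P : Fin r → Polynomial (MvPolynomial σ ℤ))
    (C : Set (Fin r → SignType)) :
    ∃ f B : (σ → ℕ) → ℕ, FSF f ∧ FSF B ∧ ∀ a,
      (f a < B a ↔ ∃ x : ℕ, (fun i => SignType.sign (pv (P i) a x)) ∈ C) ∧
      (f a < B a → f a = sInf {x : ℕ | (fun i => SignType.sign (pv (P i) a x)) ∈ C}) := by
  choose B q hq hB using fun i => exists_bound (P i)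
  have hpoly : ∀ a, ((∑ i, B i a + 1 : ℕ) : ℤ) = ev ((∑ i, q i) + MvPolynomial.C 1) a := by
    intro a
    rw [ev_add, ev_sum, ev_C]
    push_cast
    simp only [hq]
  have hBF : FSF (fun a : σ → ℕ => ∑ i, B i a + 1) := FSF.poly _ _ hpoly
  obtain ⟨f, hf, hf'⟩ := (pw_family r P (fun _ => 0) (fun a => ∑ i, B i a + 1) (FSF.const 0) hBF
    (fun a => Nat.zero_le _)).search C
  refine ⟨f, fun a => ∑ i, B i a + 1, hf, hBF, fun a => ?_⟩
  obtain ⟨-, h2, h3, h4⟩ := hf' a
  change f a ≤ ∑ i, B i a + 1 at h2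
  change f a < ∑ i, B i a + 1 → _ at h4
  change (f a < ∑ i, B i a + 1 ↔ _) ∧ (f a < ∑ i, B i a + 1 → _)
  have hconst : ∀ x, ∑ i, B i a ≤ x →
      (fun i => SignType.sign (pv (P i) a x)) = fun i => SignType.sign (pv (P i) a (∑ i, B i a)) := by
    intro x hx
    funext i
    have h5 : B i a ≤ ∑ i, B i a :=
      Finset.single_le_sum (f := fun i => B i a) (fun i _ => Nat.zero_le _) (Finset.mem_univ i)
    rw [hB i a x (h5.trans hx), hB i a _ h5]
  constructor
  · constructor
    · intro hlt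
      exact ⟨f a, h4 hlt⟩
    · rintro ⟨x, hx⟩
      by_contra hge
      have hfe : f a = ∑ i, B i a + 1 := by omega
      by_cases hxB : x < f a
      · exact h3 x (Nat.zero_le _) hxB hx
      · have h6 := h3 (∑ i, B i a) (Nat.zero_le _) (by omega)
        apply h6
        rw [← hconst x (by omega)]
        exact hx
  · intro hlt
    have hmem : f a ∈ {x : ℕ | (fun i => SignType.sign (pv (P i) a x)) ∈ C} := h4 hlt
    apply le_antisymm
    · apply le_csInf ⟨_, hmem⟩
      intro x hx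
      by_contra hxf
      exact h3 x (Nat.zero_le _) (not_le.1 hxf) hx
    · exact Nat.sInf_le hmem

theorem search_core' {n r : ℕ} (P : Fin r → MvPolynomial (Fin n ⊕ Unit) ℤ)
    (C : Set (Fin r → SignType)) :
    ∃ f B : (Fin n → ℕ) → ℕ, FSF f ∧ FSF B ∧ ∀ a,
      (f a < B a ↔ ∃ x : ℕ, signs P a x ∈ C) ∧
      (f a < B a → f a = sInf {x : ℕ | signs P a x ∈ C}) := by
  obtain ⟨f, B, hf, hB, h⟩ := search_core r (fun i => toPoly (P i)) C
  refine ⟨f, B, hf, hB, fun a => ?_⟩
  have h1 := h a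
  simp only [pv_toPoly] at h1
  exact h1

/-- Existence of a value of one unknown with prescribed signs. -/
theorem dd_exists {n r : ℕ} (P : Fin r → MvPolynomial (Fin n ⊕ Unit) ℤ)
    (C : Set (Fin r → SignType)) : DD (fun a : Fin n → ℕ => ∃ x : ℕ, signs P a x ∈ C) := by
  obtain ⟨f, B, hf, hB, h⟩ := search_core' P C
  exact (DD.lt hf hB).congr fun a => (h a).1

/-- Search for one unknown. -/
theorem fsf_search {n r : ℕ} (P : Fin r → MvPolynomial (Fin n ⊕ Unit) ℤ)
    (C : Set (Fin r → SignType)) :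
    FSF (fun a : Fin n → ℕ => sInf {x : ℕ | signs P a x ∈ C}) := by
  classical
  obtain ⟨f, B, hf, hB, h⟩ := search_core' P C
  have h1 : FSF (fun a => if f a < B a then f a else 0) := FSF.ite (DD.lt hf hB) hf (FSF.const 0)
  have e : (fun a => if f a < B a then f a else 0) =
      fun a : Fin n → ℕ => sInf {x : ℕ | signs P a x ∈ C} := by
    funext a
    by_cases hlt : f a < B a
    · rw [if_pos hlt]
      exact (h a).2 hlt
    · rw [if_neg hlt]
      have h2 : {x : ℕ | signs P a x ∈ C} = ∅ := by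
        ext x
        constructor
        · intro hx
          exact absurd ((h a).1.2 ⟨x, hx⟩) hlt
        · intro hx
          exact hx.elim
      rw [h2, Nat.sInf_empty]
  rwa [← e]

/-- From the calculus to the definition of the problem. -/
theorem singleFold_of_SF {n : ℕ} {R : (Fin n → ℕ) → Prop} (h : SF R) : SingleFold {a | R a} := by
  obtain ⟨τ, _, p, h1, h2, h3⟩ := h
  obtain ⟨e⟩ : Nonempty (τ ≃ Fin (Fintype.card τ)) := ⟨Fintype.equivFin τ⟩
  let g : Fin n ⊕ τ → Fin n ⊕ Fin (Fintype.card τ) := Sum.elim Sum.inl (fun t => Sum.inr (e t))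
  have hev : ∀ (a : Fin n → ℕ) (w : Fin (Fintype.card τ) → ℕ),
      ev (rename g p) (Sum.elim a w) = ev p (Sum.elim a (fun t => w (e t))) := by
    intro a w
    rw [ev_rename]
    congr 1
    funext i
    rcases i with i | i <;> rfl
  refine ⟨Fintype.card τ, rename g p, fun a => ⟨⟨fun ha => ?_, ?_⟩, ?_⟩⟩
  · obtain ⟨w, hw⟩ := h1 a ha
    refine ⟨fun t => w (e.symm t), ?_⟩
    rw [hev]
    simpa using hw
  · rintro ⟨w, hw⟩
    rw [hev] at hw
    exact h2 a _ hw
  · intro w w' hw hw'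
    rw [hev] at hw hw'
    have h4 := h3 a _ _ hw hw'
    funext t
    have h5 := congrFun h4 (e.symm t)
    simpa using h5

theorem singleFold_graph {n : ℕ} {f : (Fin n → ℕ) → ℕ} (h : FSF f) :
    SingleFold {b : Fin (n + 1) → ℕ | b (Fin.last n) = f (fun i => b i.castSucc)} := by
  apply singleFold_of_SF
  exact SF.comp (τ := Fin n ⊕ Unit)
    (f := Sum.elim (fun i (b : Fin (n + 1) → ℕ) => b i.castSucc) (fun _ b => b (Fin.last n))) h
    (by
      rintro (i | i)
      · exact FSF.proj _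
      · exact FSF.proj _)

/-- Equality of two functions. -/
theorem DD.eq {σ : Type} [Fintype σ] {g h : (σ → ℕ) → ℕ} (hg : FSF g) (hh : FSF h) :
    DD (fun a => g a = h a) := by
  refine ((DD.lt hg hh).not.and (DD.lt hh hg).not).congr fun a => ?_
  omega

theorem SF_of_singleFold {n : ℕ} {S : Set (Fin n → ℕ)} (h : SingleFold S) :
    SF (fun a => a ∈ S) := by
  obtain ⟨m, P, hP⟩ := h
  exact ⟨Fin m, inferInstance, P, fun a ha => (hP a).1.1 ha, fun a w hw => (hP a).1.2 ⟨w, hw⟩,
    fun a w w' hw hw' => (hP a).2 w w' hw hw'⟩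

end Vale.Agent.P345s
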