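import Vale.Agent.P345s.Pw

/-!
# P345s: the sign runs of polynomials in one unknown
-/

namespace Vale.Agent.P345s

open MvPolynomial

variable {σ : Type}

/-- Evaluation of the parameters. -/
noncomputable def evh (a : σ → ℕ) : MvPolynomial σ ℤ →+* ℤ :=
  MvPolynomial.eval (fun i => (a i : ℤ))

/-- The value of a polynomial in one unknown with parameters. -/
noncomputable def pv (P : Polynomial (MvPolynomial σ ℤ)) (a : σ → ℕ) (y : ℕ) : ℤ :=
  P.eval₂ (evh a) (y : ℤ)

/-- The same polynomial as a polynomial in all variables. -/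
noncomputable def toMv (P : Polynomial (MvPolynomial σ ℤ)) : MvPolynomial (σ ⊕ Unit) ℤ :=
  P.eval₂ (MvPolynomial.rename (R := ℤ) (Sum.inl : σ → σ ⊕ Unit)).toRingHom (X (Sum.inr ()))

theorem ev_toMv (P : Polynomial (MvPolynomial σ ℤ)) (a : σ → ℕ) (y : ℕ) :
    ev (toMv P) (Sum.elim a (fun _ => y)) = pv P a y := by
  have h := Polynomial.hom_eval₂ P (MvPolynomial.rename (R := ℤ) (Sum.inl : σ → σ ⊕ Unit)).toRingHom
    (evh (Sum.elim a (fun _ : Unit => y))) (X (Sum.inr ()))
  have e : (evh (Sum.elim a (fun _ : Unit => y))).comp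
      (MvPolynomial.rename (R := ℤ) (Sum.inl : σ → σ ⊕ Unit)).toRingHom = evh a := by
    apply MvPolynomial.ringHom_ext
    · intro r
      simp [evh]
    · intro i
      simp [evh]
  rw [e] at h
  have e2 : evh (Sum.elim a (fun _ : Unit => y)) (X (Sum.inr ())) = (y : ℤ) := by
    simp [evh]
  rw [e2] at h
  exact h

/-- From all variables to one unknown. -/
noncomputable def toPoly (p : MvPolynomial (σ ⊕ Unit) ℤ) : Polynomial (MvPolynomial σ ℤ) :=
  MvPolynomial.eval₂ (Int.castRingHom _)
    (Sum.elim (fun i => Polynomial.C (X i)) (fun _ => Polynomial.X)) p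

theorem pv_toPoly (p : MvPolynomial (σ ⊕ Unit) ℤ) (a : σ → ℕ) (y : ℕ) :
    pv (toPoly p) a y = ev p (Sum.elim a (fun _ => y)) := by
  have e : (Polynomial.eval₂RingHom (evh a) (y : ℤ)).comp
      (MvPolynomial.eval₂Hom (Int.castRingHom _)
        (Sum.elim (fun i => Polynomial.C (X i)) (fun _ => Polynomial.X))) =
      evh (Sum.elim a (fun _ : Unit => y)) := by
    apply MvPolynomial.ringHom_ext
    · intro r
      simp [evh]
    · rintro (i | i)
      · simp [evh]
      · simp [evh]
  exact DFunLike.congr_fun e p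

theorem pv_taylor (P : Polynomial (MvPolynomial σ ℤ)) (a : σ → ℕ) (y : ℕ) :
    pv (Polynomial.taylor 1 P) a y = pv P a (y + 1) := by
  rw [pv, pv, Polynomial.taylor_apply, Polynomial.eval₂_comp]
  simp

theorem pv_sub (P Q : Polynomial (MvPolynomial σ ℤ)) (a : σ → ℕ) (y : ℕ) :
    pv (P - Q) a y = pv P a y - pv Q a y := by
  rw [pv, pv, pv, Polynomial.eval₂_sub]

theorem pv_neg (P : Polynomial (MvPolynomial σ ℤ)) (a : σ → ℕ) (y : ℕ) :
    pv (-P) a y = - pv P a y := by
  rw [pv, pv, Polynomial.eval₂_neg]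

/-- Monotone case. -/
theorem pw_mono' [Fintype σ] (P : Polynomial (MvPolynomial σ ℤ)) (u v : (σ → ℕ) → ℕ) (hu : FSF u)
    (hv : FSF v) (huv : ∀ a, u a ≤ v a)
    (hm : ∀ a y, u a ≤ y → y + 1 < v a → pv P a y ≤ pv P a (y + 1)) :
    PW (fun a y => SignType.sign (pv P a y)) u v := by
  have h := pw_mono (toMv P) u v hu hv huv (by
    intro a y h1 h2
    rw [ev_toMv, ev_toMv]
    exact hm a y h1 h2)
  simpa only [ev_toMv] using h

/-- Antitone case. -/
theorem pw_anti' [Fintype σ] (P : Polynomial (MvPolynomial σ ℤ)) (u v : (σ → ℕ) → ℕ) (hu : FSF u)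
    (hv : FSF v) (huv : ∀ a, u a ≤ v a)
    (hm : ∀ a y, u a ≤ y → y + 1 < v a → pv P a (y + 1) ≤ pv P a y) :
    PW (fun a y => SignType.sign (pv P a y)) u v := by
  have h := (pw_mono' (-P) u v hu hv huv (by
    intro a y h1 h2
    rw [pv_neg, pv_neg]
    have := hm a y h1 h2
    omega)).map (fun s => -s)
  have e : (fun (a : σ → ℕ) (y : ℕ) => -SignType.sign (pv (-P) a y)) =
      fun a y => SignType.sign (pv P a y) := by
    funext a y
    rw [pv_neg, Left.sign_neg, neg_neg]
  rwa [e] at h

/-- The sign of any polynomial in one unknown is piecewise constant with single-fold cut points. -/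
theorem pw_sign [Fintype σ] (P : Polynomial (MvPolynomial σ ℤ)) (u v : (σ → ℕ) → ℕ) (hu : FSF u)
    (hv : FSF v) (huv : ∀ a, u a ≤ v a) : PW (fun a y => SignType.sign (pv P a y)) u v := by
  obtain ⟨n, hn⟩ : ∃ n, n = P.natDegree := ⟨_, rfl⟩
  induction n using Nat.strong_induction_on generalizing P u v with
  | _ n ih =>
    by_cases h0 : P.natDegree = 0
    · obtain ⟨c, hc⟩ := Polynomial.natDegree_eq_zero.1 h0
      refine pw_mono' P u v hu hv huv fun a y _ _ => ?_
      rw [← hc, pv, pv, Polynomial.eval₂_C, Polynomial.eval₂_C]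
    · have hP0 : P ≠ 0 := by
        rintro rfl
        exact h0 Polynomial.natDegree_zero
      have hlt : (Polynomial.taylor 1 P - P).natDegree < P.natDegree := by
        by_cases hz : Polynomial.taylor 1 P - P = 0
        · rw [hz, Polynomial.natDegree_zero]
          exact Nat.pos_of_ne_zero h0
        · have h1 : (Polynomial.taylor 1 P - P).degree < (Polynomial.taylor 1 P).degree :=
            Polynomial.degree_sub_lt_left (Polynomial.degree_taylor P 1)
              (by
                intro h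
                exact hP0 ((Polynomial.taylor_eq_zero _ _).1 h))
              (Polynomial.leadingCoeff_taylor _ _)
          rw [Polynomial.degree_taylor] at h1
          exact Polynomial.natDegree_lt_natDegree hz h1
      have hQ := ih _ (by rw [hn]; exact hlt) (Polynomial.taylor 1 P - P) u v hu hv huv rfl
      refine hQ.refine fun l u' v' hu' hv' huv' hl => ?_
      by_cases hneg : l = -1
      · refine pw_anti' P u' v' hu' hv' huv' fun a y h1 h2 => ?_
        have h3 := hl a y h1 (by omega)
        rw [pv_sub, pv_taylor, hneg] at h3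
        have h4 := sign_eq_neg_one_iff.1 h3
        omega
      · refine pw_mono' P u' v' hu' hv' huv' fun a y h1 h2 => ?_
        have h3 := hl a y h1 (by omega)
        rw [pv_sub, pv_taylor] at h3
        by_contra h4
        apply hneg
        rw [← h3]
        exact sign_neg (by omega)

/-- Families of polynomials. -/
theorem pw_family [Fintype σ] : ∀ (r : ℕ) (P : Fin r → Polynomial (MvPolynomial σ ℤ))
    (u v : (σ → ℕ) → ℕ), FSF u → FSF v → (∀ a, u a ≤ v a) →
      PW (fun a y => fun i : Fin r => SignType.sign (pv (P i) a y)) u v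
  | 0, P, u, v, hu, hv, huv =>
    PW.piece u v hu hv huv (fun i => i.elim0) fun a y _ _ => funext fun i => i.elim0
  | r + 1, P, u, v, hu, hv, huv => by
    have h := ((pw_sign (P 0) u v hu hv huv).pair
      (Ψ := fun a y => fun i : Fin r => SignType.sign (pv (P i.succ) a y))
      (fun u' v' h1 h2 h3 => pw_family r (fun i => P i.succ) u' v' h1 h2 h3)).map
      (fun x => (Fin.cons x.1 x.2 : Fin (r + 1) → SignType))
    have e : (fun (a : σ → ℕ) (y : ℕ) => (Fin.cons (SignType.sign (pv (P 0) a y))
        (fun i : Fin r => SignType.sign (pv (P i.succ) a y)) : Fin (r + 1) → SignType)) =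
        fun a y => fun i => SignType.sign (pv (P i) a y) := by
      funext a y i
      refine Fin.cases ?_ (fun j => ?_) i
      · rfl
      · rfl
    rwa [← e]

/-- Beyond the sum of the squares of the coefficients an integer polynomial has the sign of its
leading coefficient. -/
theorem sign_large (c : Polynomial ℤ) (N : ℕ) (hN : c.natDegree < N) (y : ℕ)
    (hy : 1 + ∑ i ∈ Finset.range N, c.coeff i ^ 2 ≤ (y : ℤ)) :
    SignType.sign (c.eval (y : ℤ)) = SignType.sign c.leadingCoeff := by
  by_cases hc : c = 0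
  · rw [hc]
    simp
  have hlc : c.leadingCoeff ≠ 0 := Polynomial.leadingCoeff_ne_zero.2 hc
  have hy1 : (1 : ℤ) ≤ y := by
    have : (0 : ℤ) ≤ ∑ i ∈ Finset.range N, c.coeff i ^ 2 :=
      Finset.sum_nonneg fun i _ => sq_nonneg _
    omega
  have hsplit : c.eval (y : ℤ) = ∑ i ∈ Finset.range c.natDegree, c.coeff i * (y : ℤ) ^ i +
      c.leadingCoeff * (y : ℤ) ^ c.natDegree := by
    rw [Polynomial.eval_eq_sum_range, Finset.sum_range_succ]
    rfl
  have hsmall : |∑ i ∈ Finset.range c.natDegree, c.coeff i * (y : ℤ) ^ i| <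
      (y : ℤ) ^ c.natDegree := by
    rcases Nat.eq_zero_or_pos c.natDegree with h0 | h0
    · rw [h0]
      simp
    · obtain ⟨e, he⟩ : ∃ e, c.natDegree = e + 1 := ⟨c.natDegree - 1, by omega⟩
      calc |∑ i ∈ Finset.range c.natDegree, c.coeff i * (y : ℤ) ^ i|
          ≤ ∑ i ∈ Finset.range c.natDegree, |c.coeff i * (y : ℤ) ^ i| :=
            Finset.abs_sum_le_sum_abs _ _
        _ ≤ ∑ i ∈ Finset.range c.natDegree, c.coeff i ^ 2 * (y : ℤ) ^ e := by
            refine Finset.sum_le_sum fun i hi => ?_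
            rw [Finset.mem_range] at hi
            rw [abs_mul, abs_of_nonneg (pow_nonneg (by omega : (0 : ℤ) ≤ y) i)]
            refine mul_le_mul ?_ (pow_le_pow_right₀ hy1 (by omega))
              (pow_nonneg (by omega) _) (sq_nonneg _)
            rw [← sq_abs]
            have h1 : 0 ≤ |c.coeff i| := abs_nonneg _
            rcases h1.eq_or_lt with h2 | h2
            · rw [← h2]; simp
            · nlinarith
        _ = (∑ i ∈ Finset.range c.natDegree, c.coeff i ^ 2) * (y : ℤ) ^ e :=
            (Finset.sum_mul _ _ _).symm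
        _ ≤ (∑ i ∈ Finset.range N, c.coeff i ^ 2) * (y : ℤ) ^ e := by
            refine mul_le_mul_of_nonneg_right ?_ (pow_nonneg (by omega) _)
            refine Finset.sum_le_sum_of_subset_of_nonneg ?_ (fun i _ _ => sq_nonneg _)
            exact Finset.range_mono hN.le
        _ < (y : ℤ) * (y : ℤ) ^ e := by
            refine mul_lt_mul_of_pos_right (by omega) (pow_pos (by omega) _)
        _ = (y : ℤ) ^ c.natDegree := by rw [he, pow_succ, mul_comm]
  rw [hsplit]
  have hT : (0 : ℤ) < (y : ℤ) ^ c.natDegree := pow_pos (by omega) _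
  obtain ⟨h1, h2⟩ := abs_lt.1 hsmall
  rcases lt_or_gt_of_ne hlc with h | h
  · rw [sign_neg h]
    apply sign_neg
    nlinarith
  · rw [sign_pos h]
    apply sign_pos
    nlinarith

/-- A single-fold bound beyond which the sign is constant. -/
theorem exists_bound [Fintype σ] (P : Polynomial (MvPolynomial σ ℤ)) :
    ∃ B : (σ → ℕ) → ℕ, ∃ q : MvPolynomial σ ℤ, (∀ a, (B a : ℤ) = ev q a) ∧
      ∀ a y, B a ≤ y → SignType.sign (pv P a y) = SignType.sign (pv P a (B a)) := by
  let q : MvPolynomial σ ℤ := 1 + ∑ i ∈ Finset.range (P.natDegree + 1), P.coeff i ^ 2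
  have hq : ∀ a, ev q a = 1 + ∑ i ∈ Finset.range (P.natDegree + 1), (evh a (P.coeff i)) ^ 2 := by
    intro a
    simp [q, ev, evh, map_sum]
  have hq0 : ∀ a, 0 ≤ ev q a := by
    intro a
    rw [hq]
    have : (0 : ℤ) ≤ ∑ i ∈ Finset.range (P.natDegree + 1), (evh a (P.coeff i)) ^ 2 :=
      Finset.sum_nonneg fun i _ => sq_nonneg _
    omega
  have hB : ∀ a, (((ev q a).toNat : ℕ) : ℤ) = ev q a := fun a => Int.toNat_of_nonneg (hq0 a)
  refine ⟨fun a => (ev q a).toNat, q, hB, fun a y hy => ?_⟩
  have hval : ∀ z : ℕ, pv P a z = (P.map (evh a)).eval (z : ℤ) := by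
    intro z
    rw [pv, Polynomial.eval_map]
  have key : ∀ z : ℕ, (ev q a).toNat ≤ z →
      SignType.sign (pv P a z) = SignType.sign (P.map (evh a)).leadingCoeff := by
    intro z hz
    rw [hval]
    apply sign_large _ (P.natDegree + 1)
    · exact Nat.lt_succ_of_le (Polynomial.natDegree_map_le)
    · simp only [Polynomial.coeff_map]
      rw [← hq, ← hB a]
      exact_mod_cast hz
  rw [key y hy, key _ le_rfl]

end Vale.Agent.P345s
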