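import Vale.Agent.P345s.Calc

/-!
# P345s: piecewise constant families with single-fold cut points
-/

namespace Vale.Agent.P345s

open MvPolynomial

variable {σ : Type}

/-- `Φ a` is piecewise constant on `[u a, v a)`, with a fixed finite list of labels and cut points
given by functions with single-fold graphs. -/
inductive PW {Λ : Type} (Φ : (σ → ℕ) → ℕ → Λ) : ((σ → ℕ) → ℕ) → ((σ → ℕ) → ℕ) → Prop
  | piece (u v : (σ → ℕ) → ℕ) (hu : FSF u) (hv : FSF v) (huv : ∀ a, u a ≤ v a) (l : Λ)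
      (h : ∀ a y, u a ≤ y → y < v a → Φ a y = l) : PW Φ u v
  | glue (u v w : (σ → ℕ) → ℕ) (h1 : PW Φ u v) (h2 : PW Φ v w) : PW Φ u w

theorem PW.facts {Λ : Type} {Φ : (σ → ℕ) → ℕ → Λ} {u v : (σ → ℕ) → ℕ} (h : PW Φ u v) :
    FSF u ∧ FSF v ∧ ∀ a, u a ≤ v a := by
  induction h with
  | piece u v hu hv huv l h => exact ⟨hu, hv, huv⟩
  | glue u v w h1 h2 ih1 ih2 => exact ⟨ih1.1, ih2.2.1, fun a => (ih1.2.2 a).trans (ih2.2.2 a)⟩

theorem PW.map {Λ Λ' : Type} {Φ : (σ → ℕ) → ℕ → Λ} (g : Λ → Λ') {u v : (σ → ℕ) → ℕ}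
    (h : PW Φ u v) : PW (fun a y => g (Φ a y)) u v := by
  induction h with
  | piece u v hu hv huv l h =>
    exact PW.piece u v hu hv huv (g l) fun a y h1 h2 => congrArg g (h a y h1 h2)
  | glue u v w h1 h2 ih1 ih2 => exact PW.glue u v w ih1 ih2

theorem PW.refine {Λ Λ' : Type} {Φ : (σ → ℕ) → ℕ → Λ} {Ψ : (σ → ℕ) → ℕ → Λ'}
    {u v : (σ → ℕ) → ℕ} (h : PW Φ u v)
    (H : ∀ (l : Λ) (u' v' : (σ → ℕ) → ℕ), FSF u' → FSF v' → (∀ a, u' a ≤ v' a) →
      (∀ a y, u' a ≤ y → y < v' a → Φ a y = l) → PW Ψ u' v') : PW Ψ u v := by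
  induction h with
  | piece u v hu hv huv l h => exact H l u v hu hv huv h
  | glue u v w h1 h2 ih1 ih2 => exact PW.glue u v w ih1 ih2

theorem PW.pair_const {Λ Λ' : Type} {Φ : (σ → ℕ) → ℕ → Λ} {Ψ : (σ → ℕ) → ℕ → Λ'}
    {u v : (σ → ℕ) → ℕ} (h : PW Ψ u v) (l : Λ)
    (hl : ∀ a y, u a ≤ y → y < v a → Φ a y = l) : PW (fun a y => (Φ a y, Ψ a y)) u v := by
  induction h with
  | piece u v hu hv huv l' h =>
    exact PW.piece u v hu hv huv (l, l') fun a y h1 h2 =>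
      Prod.ext (hl a y h1 h2) (h a y h1 h2)
  | glue u v w h1 h2 ih1 ih2 =>
    refine PW.glue u v w (ih1 fun a y h3 h4 => ?_) (ih2 fun a y h3 h4 => ?_)
    · exact hl a y h3 (lt_of_lt_of_le h4 (h2.facts.2.2 a))
    · exact hl a y ((h1.facts.2.2 a).trans h3) h4

theorem PW.pair {Λ Λ' : Type} {Φ : (σ → ℕ) → ℕ → Λ} {Ψ : (σ → ℕ) → ℕ → Λ'}
    {u v : (σ → ℕ) → ℕ} (h : PW Φ u v)
    (H : ∀ (u' v' : (σ → ℕ) → ℕ), FSF u' → FSF v' → (∀ a, u' a ≤ v' a) → PW Ψ u' v') :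
    PW (fun a y => (Φ a y, Ψ a y)) u v :=
  h.refine fun l u' v' hu hv huv hl => (H u' v' hu hv huv).pair_const l hl

/-- Searching for the first argument with a label in a given set. -/
theorem PW.search [Fintype σ] {Λ : Type} {Φ : (σ → ℕ) → ℕ → Λ} {u v : (σ → ℕ) → ℕ}
    (h : PW Φ u v) (C : Set Λ) :
    ∃ f : (σ → ℕ) → ℕ, FSF f ∧ ∀ a, u a ≤ f a ∧ f a ≤ v a ∧
      (∀ y, u a ≤ y → y < f a → Φ a y ∉ C) ∧ (f a < v a → Φ a (f a) ∈ C) := by
  classical
  induction h with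
  | piece u v hu hv huv l h =>
    by_cases hl : l ∈ C
    · refine ⟨u, hu, fun a => ⟨le_rfl, huv a, fun y h1 h2 => absurd h1 (not_le.2 h2), ?_⟩⟩
      intro h1
      rw [h a (u a) le_rfl h1]
      exact hl
    · refine ⟨v, hv, fun a => ⟨huv a, le_rfl, fun y h1 h2 => ?_, fun h1 => absurd h1 (lt_irrefl _)⟩⟩
      rw [h a y h1 h2]
      exact hl
  | glue u v w h1 h2 ih1 ih2 =>
    obtain ⟨f, hf, hf'⟩ := ih1
    obtain ⟨g, hg, hg'⟩ := ih2
    refine ⟨fun a => if f a < v a then f a else g a,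
      FSF.ite (DD.lt hf h1.facts.2.1) hf hg, fun a => ?_⟩
    obtain ⟨a1, a2, a3, a4⟩ := hf' a
    obtain ⟨b1, b2, b3, b4⟩ := hg' a
    have huv := h1.facts.2.2 a
    have hvw := h2.facts.2.2 a
    by_cases hlt : f a < v a
    · simp only [if_pos hlt]
      exact ⟨a1, by omega, a3, fun _ => a4 hlt⟩
    · simp only [if_neg hlt]
      refine ⟨by omega, b2, fun y h3 h4 => ?_, b4⟩
      by_cases hy : y < v a
      · exact a3 y h3 (by omega)
      · exact b3 y (by omega) h4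

/-- The predecessor. -/
theorem FSF.pred [Fintype σ] {f : (σ → ℕ) → ℕ} (hf : FSF f) : FSF (fun a => f a - 1) := by
  have h0 : FSF (fun b : Unit → ℕ => b () - 1) := by
    refine (SF.or (SF.and (SF.eq0 (X (Sum.inl ()))) (SF.eq0 (X (Sum.inr ()))))
      (SF.and (SF.pos (X (Sum.inl ())))
        (SF.eq0 (X (Sum.inr ()) + C 1 - X (Sum.inl ())))) ?_).congr fun b => ?_
    · intro b h1 h2
      have h3 := h1.1
      have h4 := h2.1
      rw [ev_X] at h3 h4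
      omega
    · rw [ev_X, ev_X, ev_sub, ev_add, ev_X, ev_X, ev_C]
      change _ ↔ b (Sum.inr ()) = b (Sum.inl ()) - 1
      omega
  exact h0.comp (f := fun _ => f) fun _ => hf

/-- The cut point of a monotone polynomial. -/
theorem cut [Fintype σ] (p : MvPolynomial (σ ⊕ Unit) ℤ) (u v : (σ → ℕ) → ℕ) (hu : FSF u)
    (hv : FSF v) (huv : ∀ a, u a ≤ v a)
    (hm : ∀ a y, u a ≤ y → y + 1 < v a →
      ev p (Sum.elim a (fun _ => y)) ≤ ev p (Sum.elim a (fun _ => y + 1))) :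
    ∃ α : (σ → ℕ) → ℕ, FSF α ∧ ∀ a, u a ≤ α a ∧ α a ≤ v a ∧
      (∀ y, u a ≤ y → y < α a → ev p (Sum.elim a (fun _ => y)) < 0) ∧
      (∀ y, α a ≤ y → y < v a → 0 ≤ ev p (Sum.elim a (fun _ => y))) := by
  have hex : ∀ a, ∃ y, u a ≤ y ∧ (y = v a ∨ 0 ≤ ev p (Sum.elim a (fun _ => y))) :=
    fun a => ⟨v a, huv a, Or.inl rfl⟩
  classical
  let α : (σ → ℕ) → ℕ := fun a => Nat.find (hex a)
  have hα1 : ∀ a, u a ≤ α a := fun a => (Nat.find_spec (hex a)).1
  have hα2 : ∀ a, α a = v a ∨ 0 ≤ ev p (Sum.elim a (fun _ => α a)) :=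
    fun a => (Nat.find_spec (hex a)).2
  have hα3 : ∀ a y, y < α a → ¬ (u a ≤ y ∧ (y = v a ∨ 0 ≤ ev p (Sum.elim a (fun _ => y)))) :=
    fun a y hy => Nat.find_min (hex a) hy
  have hα4 : ∀ a, α a ≤ v a := fun a => Nat.find_min' (hex a) ⟨huv a, Or.inl rfl⟩
  -- monotonicity over longer distances
  have hmono : ∀ a y z, u a ≤ y → y ≤ z → z < v a →
      ev p (Sum.elim a (fun _ => y)) ≤ ev p (Sum.elim a (fun _ => z)) := by
    intro a y z h1 h2
    induction z, h2 using Nat.le_induction with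
    | base => exact fun _ => le_rfl
    | succ z hz ih => exact fun h3 => (ih (by omega)).trans (hm a z (by omega) h3)
  have hneg : ∀ a y, u a ≤ y → y < α a → ev p (Sum.elim a (fun _ => y)) < 0 := by
    intro a y h1 h2
    by_contra h3
    exact hα3 a y h2 ⟨h1, Or.inr (by omega)⟩
  have hpos : ∀ a y, α a ≤ y → y < v a → 0 ≤ ev p (Sum.elim a (fun _ => y)) := by
    intro a y h1 h2
    rcases hα2 a with h3 | h3
    · omega
    · exact h3.trans (hmono a (α a) y (hα1 a) h1 h2)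
  refine ⟨α, ?_, fun a => ⟨hα1 a, hα4 a, hneg a, hpos a⟩⟩
  -- the graph of `α`
  have hU : FSF (fun b : σ ⊕ Unit → ℕ => u (fun i => b (Sum.inl i))) := hu.weaken Sum.inl
  have hV : FSF (fun b : σ ⊕ Unit → ℕ => v (fun i => b (Sum.inl i))) := hv.weaken Sum.inl
  have hY : FSF (fun b : σ ⊕ Unit → ℕ => b (Sum.inr ())) := FSF.proj _
  have hY1 : FSF (fun b : σ ⊕ Unit → ℕ => b (Sum.inr ()) - 1) := hY.pred
  have hN : DD (fun b : σ ⊕ Unit → ℕ => 0 < ev (C 0 - p) b) := DD.pos _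
  have hN1 : DD (fun b : σ ⊕ Unit → ℕ => 0 < ev (C 0 - p)
      (fun j => (Sum.elim (fun i (b : σ ⊕ Unit → ℕ) => b (Sum.inl i))
        (fun _ (b : σ ⊕ Unit → ℕ) => b (Sum.inr ()) - 1) : σ ⊕ Unit → (σ ⊕ Unit → ℕ) → ℕ) j b)) := by
    refine hN.comp ?_
    rintro (i | i)
    · exact FSF.proj _
    · exact hY1
  have hR := ((((DD.lt hY hU).not.and (DD.lt hV hY).not).and
    ((DD.lt hU hY).not.or hN1)).and ((DD.lt hY hV).not.or hN.not)).1
  refine hR.congr fun b => ?_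
  obtain ⟨a, ha⟩ : ∃ a : σ → ℕ, a = fun i => b (Sum.inl i) := ⟨_, rfl⟩
  obtain ⟨y, hy⟩ : ∃ y : ℕ, y = b (Sum.inr ()) := ⟨_, rfl⟩
  have e1 : ev (C 0 - p) b = - ev p (Sum.elim a (fun _ => y)) := by
    rw [ev_sub, ev_C, zero_sub]
    congr 2
    funext i
    rcases i with i | i
    · rw [ha]; rfl
    · rw [hy]; rfl
  have e2 : ev (C 0 - p) (fun j => (Sum.elim (fun i (b : σ ⊕ Unit → ℕ) => b (Sum.inl i))
        (fun _ (b : σ ⊕ Unit → ℕ) => b (Sum.inr ()) - 1) : σ ⊕ Unit → (σ ⊕ Unit → ℕ) → ℕ) j b) =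
      - ev p (Sum.elim a (fun _ => y - 1)) := by
    rw [ev_sub, ev_C, zero_sub]
    congr 2
    funext i
    rcases i with i | i
    · rw [ha]; rfl
    · rw [hy]; rfl
  rw [e1, e2, ← ha, ← hy]
  constructor
  · rintro ⟨⟨⟨h1, h2⟩, h3⟩, h4⟩
    by_contra hne
    rcases Nat.lt_or_gt_of_ne hne with hlt | hgt
    · -- `y < α`
      have h5 := hneg a y (by omega) hlt
      rcases h4 with h4 | h4
      · have := hα4 a
        omega
      · omega
    · -- `α < y`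
      have h5 := hpos a (y - 1) (by omega) (by omega)
      have := hα1 a
      rcases h3 with h3 | h3
      · omega
      · omega
  · intro h
    rw [h]
    refine ⟨⟨⟨not_lt.2 (hα1 a), not_lt.2 (hα4 a)⟩, ?_⟩, ?_⟩
    · by_cases h1 : u a < α a
      · right
        have := hneg a (α a - 1) (by omega) (by omega)
        omega
      · exact Or.inl h1
    · by_cases h1 : α a < v a
      · right
        have := hpos a (α a) le_rfl h1
        omega
      · exact Or.inl h1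

/-- The sign of a monotone polynomial. -/
theorem pw_mono [Fintype σ] (p : MvPolynomial (σ ⊕ Unit) ℤ) (u v : (σ → ℕ) → ℕ) (hu : FSF u)
    (hv : FSF v) (huv : ∀ a, u a ≤ v a)
    (hm : ∀ a y, u a ≤ y → y + 1 < v a →
      ev p (Sum.elim a (fun _ => y)) ≤ ev p (Sum.elim a (fun _ => y + 1))) :
    PW (fun a y => SignType.sign (ev p (Sum.elim a (fun _ => y)))) u v := by
  obtain ⟨α, hα, h1⟩ := cut p u v hu hv huv hm
  obtain ⟨β, hβ, h2⟩ := cut (p - C 1) α v hα hv (fun a => (h1 a).2.1) (by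
    intro a y h3 h4
    rw [ev_sub, ev_sub, ev_C, ev_C]
    have := hm a y ((h1 a).1.trans h3) h4
    omega)
  refine PW.glue u α v ?_ (PW.glue α β v ?_ ?_)
  · refine PW.piece u α hu hα (fun a => (h1 a).1) (-1) fun a y h3 h4 => ?_
    exact sign_neg ((h1 a).2.2.1 y h3 h4)
  · refine PW.piece α β hα hβ (fun a => (h2 a).1) 0 fun a y h3 h4 => ?_
    have h5 := (h1 a).2.2.2 y h3 (lt_of_lt_of_le h4 (h2 a).2.1)
    have h6 := (h2 a).2.2.1 y h3 h4
    rw [ev_sub, ev_C] at h6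
    have h7 : ev p (Sum.elim a (fun _ => y)) = 0 := by omega
    change SignType.sign (ev p (Sum.elim a (fun _ => y))) = 0
    rw [h7, sign_zero]
  · refine PW.piece β v hβ hv (fun a => (h2 a).2.1) 1 fun a y h3 h4 => ?_
    have h6 := (h2 a).2.2.2 y h3 h4
    rw [ev_sub, ev_C] at h6
    exact sign_pos (by omega)

end Vale.Agent.P345s
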