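import Vale.Agent.P345s.Gcd

/-!
# P345s: linear equations in two natural unknowns
-/

namespace Vale.Agent.P345s

open MvPolynomial

/-- The unique certificate. -/
noncomputable def cert (a : Fin 2 → ℕ) : Fin 5 → ℕ := (exists_unique_gcd a).choose

theorem fsf_cert (k : Fin 5) : FSF (fun a : Fin 2 → ℕ => cert a k) := by
  refine FSF.of_uniq sf_Rgcd (fun k a => cert a k) (fun a w => ⟨fun h => ?_, fun h => ?_⟩) k
  · exact (exists_unique_gcd a).choose_spec.2 w h
  · have h1 : w = cert a := h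
    rw [h1]
    exact (exists_unique_gcd a).choose_spec.1

theorem cert_spec (p q : ℕ) (hp : 0 < p) (hq : 0 < q) :
    p = cert ![p, q] 0 * cert ![p, q] 1 ∧ q = cert ![p, q] 0 * cert ![p, q] 2 ∧
      cert ![p, q] 3 * cert ![p, q] 1 = cert ![p, q] 4 * cert ![p, q] 2 + 1 := by
  have h : Rgcd (Sum.elim ![p, q] (cert ![p, q])) := (exists_unique_gcd ![p, q]).choose_spec.1
  rcases h with ⟨-, ⟨h1, h2⟩, h3, -⟩ | ⟨h0, -⟩
  · exact ⟨h1, h2, h3⟩
  · have h0' : p * q = 0 := h0
    exact absurd h0' (Nat.mul_pos hp hq).ne'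

theorem fsf_cert' {σ : Type} [Fintype σ] {f g : (σ → ℕ) → ℕ} (hf : FSF f) (hg : FSF g)
    (k : Fin 5) : FSF (fun a => cert ![f a, g a] k) := by
  have h := (fsf_cert k).comp (f := ![f, g]) (by
    intro j
    fin_cases j
    · exact hf
    · exact hg)
  have e : (fun a => cert (fun j => (![f, g] : Fin 2 → (σ → ℕ) → ℕ) j a) k) =
      fun a => cert ![f a, g a] k := by
    funext a
    congr 1
    congr 1
    funext j
    fin_cases j <;> rfl
  rwa [e] at h

theorem FSF.add {σ : Type} [Fintype σ] {f g : (σ → ℕ) → ℕ} (hf : FSF f) (hg : FSF g) :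
    FSF (fun a => f a + g a) := by
  have h0 : FSF (fun b : Fin 2 → ℕ => b 0 + b 1) :=
    FSF.poly (X 0 + X 1) _ fun a => by rw [ev_add, ev_X, ev_X]; push_cast; rfl
  refine (h0.comp (f := ![f, g]) ?_)
  intro j
  fin_cases j
  · exact hf
  · exact hg

/-- The arithmetic behind the two criteria. -/
theorem arith (p q c g x' y' s t : ℕ) (hq : 0 < q) (h1 : p = g * x')
    (h2 : q = g * y') (h3 : s * x' = t * y' + 1) (hc : c % g = 0) :
    p * (s * (c / g) % y') ≡ c [MOD q] ∧
      ∀ x y, p * x + q * y = c → s * (c / g) % y' ≤ x := by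
  have hg : 0 < g := Nat.pos_of_ne_zero fun h => by rw [h, zero_mul] at h2; omega
  have hy : 0 < y' := Nat.pos_of_ne_zero fun h => by rw [h, mul_zero] at h2; omega
  obtain ⟨d, hd⟩ := Nat.dvd_of_mod_eq_zero hc
  have hcd : c / g = d := by rw [hd, Nat.mul_div_cancel_left _ hg]
  rw [hcd]
  have hs1 : s * x' ≡ 1 [MOD y'] := by
    rw [h3]
    have := (Nat.modEq_zero_iff_dvd.2 (⟨t, mul_comm t y'⟩ : y' ∣ t * y')).add_right 1
    simpa using this
  constructor
  · rw [h1, h2, hd, mul_assoc]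
    apply Nat.ModEq.mul_left'
    calc x' * (s * d % y') ≡ x' * (s * d) [MOD y'] := (Nat.mod_modEq _ _).mul_left x'
      _ = (s * x') * d := by ring
      _ ≡ 1 * d [MOD y'] := hs1.mul_right d
      _ = d := one_mul d
  · intro x y hxy
    rw [h1, h2, hd] at hxy
    have h4 : x' * x + y' * y = d := by
      have : g * (x' * x + y' * y) = g * d := by rw [← hxy]; ring
      exact Nat.eq_of_mul_eq_mul_left hg this
    have h5 : s * d ≡ x [MOD y'] := by
      rw [← h4]
      calc s * (x' * x + y' * y) = (s * x') * x + y' * (s * y) := by ring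
        _ ≡ 1 * x + 0 [MOD y'] :=
            (hs1.mul_right x).add (Nat.modEq_zero_iff_dvd.2 ⟨s * y, rfl⟩)
        _ = x := by ring
    have h6 : s * d % y' = x % y' := h5
    rw [h6]
    exact Nat.mod_le _ _

theorem crit1 (p q c : ℕ) : (∃ x y : ℕ, p * x + q * y = c) ↔
    (p * q = 0 ∧ c % (p + q) = 0) ∨
      (¬ p * q = 0 ∧ (c % cert ![p, q] 0 = 0 ∧
        ¬ c < p * (cert ![p, q] 3 * (c / cert ![p, q] 0) % cert ![p, q] 2))) := by
  by_cases h0 : p * q = 0
  · rcases Nat.mul_eq_zero.1 h0 with h | h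
    · subst h
      constructor
      · rintro ⟨x, y, hxy⟩
        left
        refine ⟨h0, ?_⟩
        rw [← hxy]
        simp
      · rintro (⟨-, h1⟩ | ⟨h1, -⟩)
        · rw [zero_add] at h1
          obtain ⟨y, hy⟩ := Nat.dvd_of_mod_eq_zero h1
          exact ⟨0, y, by rw [hy]; simp⟩
        · exact absurd h0 h1
    · subst h
      constructor
      · rintro ⟨x, y, hxy⟩
        left
        refine ⟨h0, ?_⟩
        rw [← hxy]
        simp
      · rintro (⟨-, h1⟩ | ⟨h1, -⟩)
        · rw [add_zero] at h1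
          obtain ⟨x, hx⟩ := Nat.dvd_of_mod_eq_zero h1
          exact ⟨x, 0, by rw [hx]; simp⟩
        · exact absurd h0 h1
  · have hp : 0 < p := Nat.pos_of_ne_zero fun h => h0 (by rw [h, zero_mul])
    have hq : 0 < q := Nat.pos_of_ne_zero fun h => h0 (by rw [h, mul_zero])
    obtain ⟨c1, c2, c3⟩ := cert_spec p q hp hq
    constructor
    · rintro ⟨x, y, hxy⟩
      right
      have hdiv : cert ![p, q] 0 ∣ c := by
        rw [← hxy]
        refine dvd_add ?_ ?_
        · exact Dvd.dvd.mul_right ⟨_, c1⟩ x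
        · exact Dvd.dvd.mul_right ⟨_, c2⟩ y
      have hmod : c % cert ![p, q] 0 = 0 := Nat.mod_eq_zero_of_dvd hdiv
      refine ⟨h0, hmod, ?_⟩
      have h1 := (arith p q c _ _ _ _ _ hq c1 c2 c3 hmod).2 x y hxy
      rw [not_lt]
      calc p * (cert ![p, q] 3 * (c / cert ![p, q] 0) % cert ![p, q] 2) ≤ p * x :=
            Nat.mul_le_mul_left p h1
        _ ≤ c := by rw [← hxy]; exact Nat.le_add_right _ _
    · rintro (⟨h1, -⟩ | ⟨-, hmod, hle⟩)
      · exact absurd h1 h0
      · rw [not_lt] at hle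
        have h1 := (arith p q c _ _ _ _ _ hq c1 c2 c3 hmod).1
        obtain ⟨y, hy⟩ := (Nat.modEq_iff_dvd' hle).1 h1
        exact ⟨_, y, by rw [← hy]; exact Nat.add_sub_cancel' hle⟩

theorem crit2 (p q c : ℕ) : (∃ x y : ℕ, p * x = q * y + c) ↔
    (p + c = 0) ∨ (0 < p ∧ ((q = 0 ∧ c % p = 0) ∨ (0 < q ∧ c % cert ![p, q] 0 = 0))) := by
  rcases Nat.eq_zero_or_pos p with h | hp
  · subst h
    constructor
    · rintro ⟨x, y, hxy⟩
      left
      have : q * y + c = 0 := by rw [← hxy, zero_mul]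
      omega
    · rintro (h1 | ⟨h1, -⟩)
      · exact ⟨0, 0, by simp at h1; simp [h1]⟩
      · exact absurd h1 (lt_irrefl _)
  · rcases Nat.eq_zero_or_pos q with h | hq
    · subst h
      constructor
      · rintro ⟨x, y, hxy⟩
        right
        refine ⟨hp, Or.inl ⟨rfl, ?_⟩⟩
        rw [zero_mul, zero_add] at hxy
        rw [← hxy]
        simp
      · rintro (h1 | ⟨-, ⟨-, h1⟩ | ⟨h1, -⟩⟩)
        · omega
        · obtain ⟨x, hx⟩ := Nat.dvd_of_mod_eq_zero h1
          exact ⟨x, 0, by rw [hx]; simp⟩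
        · exact absurd h1 (lt_irrefl _)
    · obtain ⟨c1, c2, c3⟩ := cert_spec p q hp hq
      constructor
      · rintro ⟨x, y, hxy⟩
        right
        refine ⟨hp, Or.inr ⟨hq, ?_⟩⟩
        apply Nat.mod_eq_zero_of_dvd
        have h1 : cert ![p, q] 0 ∣ p * x := Dvd.dvd.mul_right ⟨_, c1⟩ x
        have h2 : cert ![p, q] 0 ∣ q * y := Dvd.dvd.mul_right ⟨_, c2⟩ y
        rw [hxy] at h1
        exact (Nat.dvd_add_right h2).1 h1
      · rintro (h1 | ⟨-, ⟨h1, -⟩ | ⟨-, hmod⟩⟩)
        · omega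
        · omega
        · have h1 := (arith p q c _ _ _ _ _ hq c1 c2 c3 hmod).1
          obtain ⟨z, hz⟩ : ∃ z, z = cert ![p, q] 3 * (c / cert ![p, q] 0) % cert ![p, q] 2 :=
            ⟨_, rfl⟩
          rw [← hz] at h1
          have h2 : c ≡ p * (z + q * c) [MOD q] := by
            refine h1.symm.trans ?_
            rw [mul_add]
            have h3 : p * (q * c) ≡ 0 [MOD q] :=
              Nat.modEq_zero_iff_dvd.2 ⟨p * c, by ring⟩
            exact (Nat.ModEq.add_left (p * z) h3).symm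
          have hle : c ≤ p * (z + q * c) := by
            calc c ≤ q * c := Nat.le_mul_of_pos_left c hq
              _ ≤ z + q * c := Nat.le_add_left _ _
              _ ≤ p * (z + q * c) := Nat.le_mul_of_pos_left _ hp
          obtain ⟨y, hy⟩ := (Nat.modEq_iff_dvd' hle).1 h2
          exact ⟨z + q * c, y, by rw [← hy]; omega⟩

section
variable {σ : Type} [Fintype σ] {f g h : (σ → ℕ) → ℕ}

/-- Equations with coefficients of the same sign. -/
theorem dd_lin1 (hf : FSF f) (hg : FSF g) (hh : FSF h) :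
    DD (fun a => ∃ x y : ℕ, f a * x + g a * y = h a) := by
  have h0 := FSF.const (σ := σ) 0
  have hG := fsf_cert' hf hg 0
  refine DD.congr (fun a => (crit1 (f a) (g a) (h a)).symm) ?_
  refine DD.or (DD.and (DD.eq (hf.mul hg) h0) (DD.eq (hh.mod (hf.add hg)) h0))
    (DD.and (DD.eq (hf.mul hg) h0).not (DD.and (DD.eq (hh.mod hG) h0) (DD.lt hh
      (hf.mul (((fsf_cert' hf hg 3).mul (hh.div hG)).mod (fsf_cert' hf hg 2)))).not))

/-- Equations with coefficients of opposite signs. -/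
theorem dd_lin2 (hf : FSF f) (hg : FSF g) (hh : FSF h) :
    DD (fun a => ∃ x y : ℕ, f a * x = g a * y + h a) := by
  have h0 := FSF.const (σ := σ) 0
  have hG := fsf_cert' hf hg 0
  refine DD.congr (fun a => (crit2 (f a) (g a) (h a)).symm) ?_
  refine DD.or (DD.eq (hf.add hh) h0) (DD.and (DD.lt h0 hf)
    (DD.or (DD.and (DD.eq hg h0) (DD.eq (hh.mod hf) h0))
      (DD.and (DD.lt h0 hg) (DD.eq (hh.mod hG) h0))))

/-- Greatest common divisors. -/
theorem FSF.gcd (hf : FSF f) (hg : FSF g) : FSF (fun a => Nat.gcd (f a) (g a)) := by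
  classical
  have h0 := FSF.const (σ := σ) 0
  have h1 := FSF.ite (DD.eq (hf.mul hg) h0) (hf.add hg) (fsf_cert' hf hg 0)
  have e : (fun a => if f a * g a = 0 then f a + g a else cert ![f a, g a] 0) =
      fun a => Nat.gcd (f a) (g a) := by
    funext a
    by_cases h2 : f a * g a = 0
    · rw [if_pos h2]
      rcases Nat.mul_eq_zero.1 h2 with h3 | h3
      · rw [h3, Nat.gcd_zero_left, zero_add]
      · rw [h3, Nat.gcd_zero_right, add_zero]
    · rw [if_neg h2]
      have hp : 0 < f a := Nat.pos_of_ne_zero fun h => h2 (by rw [h, zero_mul])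
      have hq : 0 < g a := Nat.pos_of_ne_zero fun h => h2 (by rw [h, mul_zero])
      obtain ⟨c1, c2, c3⟩ := cert_spec (f a) (g a) hp hq
      have hcop : Nat.Coprime (cert ![f a, g a] 1) (cert ![f a, g a] 2) := by
        rw [Nat.coprime_iff_gcd_eq_one]
        have m1 : Nat.gcd (cert ![f a, g a] 1) (cert ![f a, g a] 2) ∣
            cert ![f a, g a] 3 * cert ![f a, g a] 1 := (Nat.gcd_dvd_left _ _).mul_left _
        have m2 : Nat.gcd (cert ![f a, g a] 1) (cert ![f a, g a] 2) ∣
            cert ![f a, g a] 4 * cert ![f a, g a] 2 := (Nat.gcd_dvd_right _ _).mul_left _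
        rw [c3] at m1
        exact Nat.dvd_one.1 ((Nat.dvd_add_right m2).1 m1)
      have e3 : Nat.gcd (f a) (g a) = Nat.gcd (cert ![f a, g a] 0 * cert ![f a, g a] 1)
          (cert ![f a, g a] 0 * cert ![f a, g a] 2) := congrArg₂ Nat.gcd c1 c2
      rw [e3, Nat.gcd_mul_left, Nat.coprime_iff_gcd_eq_one.1 hcop, mul_one]
  rwa [e] at h1

end

end Vale.Agent.P345s
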